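import Vale.Agent.P111.MathlibUsed
import Vale.Agent.P111.QL.Avg
import Vale.Agent.P111.QL.Defs

set_option linter.all false

/-! The `K`-convexity constant of a finite dimensional space. -/

namespace Vale.Agent.P111.H698

open Finset QL

theorem rad_real_sq_le {n : ℕ} (g : (Fin n → ℤˣ) → ℝ) :
    (avg fun ε => (rad g ε) ^ 2) ≤ avg fun ε => g ε ^ 2 := by
  set c : Fin n → ℝ := fun i => avg fun η : Fin n → ℤˣ => sg (η i) * g η with hc
  have hrad : ∀ ε, rad g ε = ∑ i, sg (ε i) * c i := fun ε => by simp [rad, hc]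
  have h1 : (avg fun ε : Fin n → ℤˣ => (rad g ε) ^ 2) = ∑ i, c i ^ 2 := by
    have e : ∀ ε : Fin n → ℤˣ, (rad g ε) ^ 2
        = ∑ i, ∑ j, (c i * c j) * (sg (ε i) * sg (ε j)) := by
      intro ε
      rw [hrad, sq, Finset.sum_mul_sum]
      exact Finset.sum_congr rfl fun i _ => Finset.sum_congr rfl fun j _ => by ring
    simp only [e]
    rw [avg_sum]
    refine Finset.sum_congr rfl fun i _ => ?_
    rw [avg_sum]
    have e2 : ∀ j, (avg fun ε : Fin n → ℤˣ => (c i * c j) * (sg (ε i) * sg (ε j)))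
        = if i = j then c i ^ 2 else 0 := by
      intro j
      rw [avg_mul_left, avg_sg_mul_sg]
      split_ifs with h
      · subst h; ring
      · ring
    simp only [e2]
    simp
  have h2 : (avg fun ε : Fin n → ℤˣ => g ε * rad g ε) = ∑ i, c i ^ 2 := by
    have e : ∀ ε : Fin n → ℤˣ, g ε * rad g ε = ∑ i, c i * (sg (ε i) * g ε) := by
      intro ε
      rw [hrad, Finset.mul_sum]
      exact Finset.sum_congr rfl fun i _ => by ring
    simp only [e]
    rw [avg_sum]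
    refine Finset.sum_congr rfl fun i _ => ?_
    rw [avg_mul_left, sq]
  have h3 : 0 ≤ avg fun ε : Fin n → ℤˣ => (g ε - rad g ε) ^ 2 := avg_nonneg fun ε => sq_nonneg _
  have h4 : (avg fun ε : Fin n → ℤˣ => (g ε - rad g ε) ^ 2)
      = (avg fun ε : Fin n → ℤˣ => g ε ^ 2) + (avg fun ε : Fin n → ℤˣ => (rad g ε) ^ 2)
        + (-2) * (avg fun ε : Fin n → ℤˣ => g ε * rad g ε) := by
    rw [← avg_mul_left, ← avg_add, ← avg_add]
    exact avg_congr fun ε => by ring
  rw [h4, h1, h2] at h3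
  rw [h1]
  linarith

theorem rad_sq_le : ∀ (d : ℕ) (E : Type*) [NormedAddCommGroup E] [NormedSpace ℝ E]
    [FiniteDimensional ℝ E], Module.finrank ℝ E = d → ∀ (n : ℕ) (f : (Fin n → ℤˣ) → E),
    (avg fun ε => ‖rad f ε‖ ^ 2) ≤ (16 : ℝ) ^ d * avg fun ε => ‖f ε‖ ^ 2 := by
  intro d
  induction d with
  | zero =>
    intro E _ _ _ hE n f
    haveI : Subsingleton E := Module.finrank_zero_iff.1 hE
    have h1 : ∀ x : E, ‖x‖ = 0 := fun x => by rw [Subsingleton.elim x 0, norm_zero]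
    simp [h1]
  | succ d ih =>
    intro E _ _ _ hE n f
    haveI : Nontrivial E := Module.nontrivial_of_finrank_pos (R := ℝ) (by omega)
    obtain ⟨v, hv⟩ := exists_norm_eq E zero_le_one
    have hv0 : v ≠ 0 := by
      intro h; rw [h, norm_zero] at hv; exact zero_ne_one hv
    obtain ⟨φ, hφ, hφv⟩ := exists_dual_vector ℝ v (by rw [hv]; exact one_ne_zero)
    have hφv1 : φ v = 1 := by rw [hφv, hv]; simp
    let W : Submodule ℝ E := LinearMap.ker (φ : E →ₗ[ℝ] ℝ)
    have hW : Module.finrank ℝ W = d := by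
      have h := LinearMap.finrank_range_add_finrank_ker (φ : E →ₗ[ℝ] ℝ)
      have hr : LinearMap.range (φ : E →ₗ[ℝ] ℝ) = ⊤ := by
        rw [LinearMap.range_eq_top]
        intro c
        exact ⟨c • v, by
          change φ (c • v) = c
          rw [map_smul, hφv1, smul_eq_mul, mul_one]⟩
      rw [hr, finrank_top, Module.finrank_self, hE] at h
      change Module.finrank ℝ (LinearMap.ker (φ : E →ₗ[ℝ] ℝ)) = d
      omega
    have hg : ∀ ε, f ε - φ (f ε) • v ∈ W := by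
      intro ε
      change φ (f ε - φ (f ε) • v) = 0
      rw [map_sub, map_smul, hφv1, smul_eq_mul, mul_one, sub_self]
    let g : (Fin n → ℤˣ) → W := fun ε => ⟨f ε - φ (f ε) • v, hg ε⟩
    have hφle : ∀ x, |φ x| ≤ ‖x‖ := by
      intro x
      have := φ.le_opNorm x
      rwa [hφ, one_mul, Real.norm_eq_abs] at this
    have e1 : ∀ ε, rad f ε = rad (fun ε => φ (f ε)) ε • v + ((rad g ε : W) : E) := by
      intro ε
      have e2 : ((rad g ε : W) : E) = rad (fun ε => f ε - φ (f ε) • v) ε := by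
        simp only [rad, avg, g]
        push_cast
        rfl
      rw [e2]
      simp only [rad, avg, smul_sub, Finset.sum_sub_distrib, Finset.sum_smul, smul_eq_mul,
        Finset.smul_sum, Finset.mul_sum, smul_smul]
      rw [add_sub_cancel]
    have h1 := rad_real_sq_le fun ε => φ (f ε)
    have h2 := ih W hW n g
    have h3 : (avg fun ε => ‖rad f ε‖ ^ 2) ≤
        2 * (avg fun ε => (rad (fun ε => φ (f ε)) ε) ^ 2) + 2 * avg fun ε => ‖rad g ε‖ ^ 2 := by
      rw [← avg_mul_left, ← avg_mul_left, ← avg_add]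
      refine avg_mono fun ε => ?_
      rw [e1]
      have h4 := norm_add_le (rad (fun ε => φ (f ε)) ε • v) ((rad g ε : W) : E)
      rw [norm_smul, hv, mul_one, Real.norm_eq_abs] at h4
      have h5 : ‖((rad g ε : W) : E)‖ = ‖rad g ε‖ := rfl
      rw [h5] at h4
      have h6 : 0 ≤ ‖rad (fun ε => φ (f ε)) ε • v + ((rad g ε : W) : E)‖ := norm_nonneg _
      have h7 := sq_abs (rad (fun ε => φ (f ε)) ε)
      nlinarith [sq_nonneg (|rad (fun ε => φ (f ε)) ε| - ‖rad g ε‖)]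
    have h4 : (avg fun ε => ‖g ε‖ ^ 2) ≤ 4 * avg fun ε => ‖f ε‖ ^ 2 := by
      rw [← avg_mul_left]
      refine avg_mono fun ε => ?_
      have h5 : ‖g ε‖ = ‖f ε - φ (f ε) • v‖ := rfl
      have h6 := norm_sub_le (f ε) (φ (f ε) • v)
      rw [norm_smul, hv, mul_one, Real.norm_eq_abs] at h6
      have h7 := hφle (f ε)
      have h8 : ‖g ε‖ ≤ 2 * ‖f ε‖ := by rw [h5]; linarith
      have h9 : 0 ≤ ‖g ε‖ := norm_nonneg _
      nlinarith
    have h5 : (avg fun ε => φ (f ε) ^ 2) ≤ avg fun ε => ‖f ε‖ ^ 2 := by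
      refine avg_mono fun ε => ?_
      have := hφle (f ε)
      rw [← sq_abs]
      gcongr
    have h6 : 0 ≤ avg fun ε => ‖f ε‖ ^ 2 := avg_nonneg fun ε => by positivity
    have h7 : (1 : ℝ) ≤ 16 ^ d := one_le_pow₀ (by norm_num)
    calc (avg fun ε => ‖rad f ε‖ ^ 2)
        ≤ 2 * (avg fun ε => ‖f ε‖ ^ 2) + 2 * ((16 : ℝ) ^ d * (4 * avg fun ε => ‖f ε‖ ^ 2)) := by
          have h8 : (16 : ℝ) ^ d * (avg fun ε => ‖g ε‖ ^ 2) ≤
            (16 : ℝ) ^ d * (4 * avg fun ε => ‖f ε‖ ^ 2) := by gcongr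
          linarith
      _ ≤ (16 : ℝ) ^ (d + 1) * avg fun ε => ‖f ε‖ ^ 2 := by
          rw [pow_succ]
          nlinarith [mul_nonneg (sub_nonneg.2 h7) h6]

theorem kconvex_of_finrank {d : ℕ} {E : Type*} [NormedAddCommGroup E] [NormedSpace ℝ E]
    [FiniteDimensional ℝ E] (h : Module.finrank ℝ E ≤ d) : KConvexWith (4 ^ d) E := by
  intro n f
  have h1 := rad_sq_le _ E rfl n f
  have h0 : 0 ≤ avg fun ε => ‖f ε‖ ^ 2 := avg_nonneg fun ε => by positivity
  have h2 : (avg fun ε => ‖rad f ε‖ ^ 2) ≤ ((4 : ℝ) ^ d) ^ 2 * avg fun ε => ‖f ε‖ ^ 2 := by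
    refine h1.trans ?_
    gcongr
    calc (16 : ℝ) ^ Module.finrank ℝ E ≤ 16 ^ d := pow_le_pow_right₀ (by norm_num) h
      _ = (4 ^ d) ^ 2 := by rw [← pow_mul, mul_comm, pow_mul]; norm_num
  rw [← Real.sqrt_eq_rpow, ← Real.sqrt_eq_rpow]
  calc √(avg fun ε => ‖rad f ε‖ ^ 2) ≤ √(((4 : ℝ) ^ d) ^ 2 * avg fun ε => ‖f ε‖ ^ 2) :=
        Real.sqrt_le_sqrt h2
    _ = 4 ^ d * √(avg fun ε => ‖f ε‖ ^ 2) := by
        rw [Real.sqrt_mul (by positivity), Real.sqrt_sq (by positivity)]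

end Vale.Agent.P111.H698
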