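import Vale.Agent.P111.R2.H698.Interp
import Vale.Agent.P111.R2.H698.FinK

set_option linter.all false

/-! General alphabets. -/

namespace Vale.Agent.P111.H698

open Finset QL

section

variable {Ω : Type*}

open Classical in
/-- a map to signs. -/
noncomputable def toSg (a : Ω) (x : Ω) : ℤˣ := if x = a then 1 else -1

/-- a map from signs. -/
def ofSg (a b : Ω) (s : ℤˣ) : Ω := if s = 1 then a else b

theorem toSg_ofSg {a b : Ω} (hab : a ≠ b) (s : ℤˣ) : toSg a (ofSg a b s) = s := by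
  classical
  rcases Int.units_eq_one_or s with h | h
  · subst h; simp [toSg, ofSg]
  · subst h
    have h1 : ¬ ((-1 : ℤˣ) = 1) := by decide
    simp [toSg, ofSg, h1, hab.symm]

theorem isSub_conj {I : Type*} (a b : Ω) {σ : (I → ℤˣ) → (I → ℤˣ)} (hσ : IsSubst σ) :
    IsSub (fun (x : I → Ω) (j : I) => ofSg a b (σ (fun i => toSg a (x i)) j)) := by
  intro j
  rcases hσ j with ⟨i, s, h⟩ | ⟨s, h⟩
  · exact ⟨i, fun ω => ofSg a b (s * toSg a ω), fun x => congrArg (ofSg a b) (h _)⟩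
  · exact ⟨j, fun _ => ofSg a b s, fun x => congrArg (ofSg a b) (h _)⟩

theorem pos_of_copy {n : ℕ} {D : ℝ} {X : Type*} [NormedAddCommGroup X] [NormedSpace ℝ X]
    [Nonempty Ω] {J : ((Fin n → Ω) → ℝ) →ₗ[ℝ] X} {R : X →ₗ[ℝ] ((Fin n → Ω) → ℝ)}
    (hRJ : ∀ u, R (J u) = u)
    (hσ : ∀ σ : (Fin n → Ω) → (Fin n → Ω), IsSub σ → ∀ u, ‖J (u ∘ σ)‖ ≤ D * ‖J u‖) : 1 ≤ D := by
  obtain ⟨a⟩ := ‹Nonempty Ω›
  have h3 := hσ id (fun j => ⟨j, id, fun x => rfl⟩) (fun _ => 1)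
  have h4 : J (fun _ => 1) ≠ 0 := by
    intro h
    have h5 := hRJ (fun _ => 1)
    rw [h, map_zero] at h5
    have := congrFun h5 (fun _ => a)
    simp at this
  have h6 : 0 < ‖J (fun _ => 1)‖ := norm_pos_iff.2 h4
  rw [Function.comp_id] at h3
  by_contra hD
  push Not at hD
  nlinarith

/-- general alphabets reduce to signs. -/
theorem cube_of_copy [Nontrivial Ω] {n : ℕ} {D : ℝ} {X : Type*} [NormedAddCommGroup X]
    [NormedSpace ℝ X] (h : HasCopy Ω n D X) : HasCube n D (D * D) X := by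
  obtain ⟨a, b, hab⟩ := exists_pair_ne Ω
  obtain ⟨J, R, hRJ, hJR, hσ⟩ := h
  let π : (Fin n → Ω) → (Fin n → ℤˣ) := fun x i => toSg a (x i)
  let s : (Fin n → ℤˣ) → (Fin n → Ω) := fun x i => ofSg a b (x i)
  have hπs : ∀ x, π (s x) = x := fun x => funext fun i => toSg_ofSg hab (x i)
  let J' : ((Fin n → ℤˣ) → ℝ) →ₗ[ℝ] X :=
    { toFun := fun u => J (u ∘ π)
      map_add' := fun u v => by rw [← map_add]; rfl
      map_smul' := fun c u => by rw [RingHom.id_apply, ← map_smul]; rfl }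
  let R' : X →ₗ[ℝ] ((Fin n → ℤˣ) → ℝ) :=
    { toFun := fun e => R e ∘ s
      map_add' := fun a b => by rw [map_add]; rfl
      map_smul' := fun c a => by rw [map_smul]; rfl }
  refine ⟨J', R', fun u => ?_, fun x => ?_, fun σ hs u => ?_⟩
  · change R (J (u ∘ π)) ∘ s = u
    rw [hRJ]
    ext x
    simp [hπs]
  · have h1 : IsSub (s ∘ π) := fun j => ⟨j, fun ω => ofSg a b (toSg a ω), fun x => rfl⟩
    have h2 := hσ _ h1 (R x)
    have hD : 1 ≤ D := pos_of_copy hRJ hσ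
    calc ‖J ((R x) ∘ (s ∘ π))‖ ≤ D * ‖J (R x)‖ := h2
      _ ≤ D * (D * ‖x‖) := by
          have := hJR x
          gcongr
      _ = D * D * ‖x‖ := by ring
  · have h1 := isSub_conj a b hs
    have h2 := hσ _ h1 (u ∘ π)
    have h3 : (u ∘ π) ∘ (fun (x : Fin n → Ω) (j : Fin n) =>
        ofSg a b (σ (fun i => toSg a (x i)) j)) = (u ∘ σ) ∘ π := by
      ext x
      exact congrArg u (hπs (σ (π x)))
    rw [h3] at h2
    exact h2

end

theorem isSub_of_isSubst {I : Type*} {σ : (I → ℤˣ) → (I → ℤˣ)} (hσ : IsSubst σ) : IsSub σ := by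
  intro j
  rcases hσ j with ⟨i, s, h⟩ | ⟨s, h⟩
  · exact ⟨i, fun t => s * t, h⟩
  · exact ⟨j, fun _ => s, h⟩

theorem copy_of_equiv {Ω : Type*} [Nonempty Ω] {n : ℕ} {D : ℝ} {E : Type*} [NormedAddCommGroup E]
    [NormedSpace ℝ E] (J : ((Fin n → Ω) → ℝ) ≃ₗ[ℝ] E)
    (hσ : ∀ σ : (Fin n → Ω) → (Fin n → Ω), IsSub σ → ∀ u, ‖J (u ∘ σ)‖ ≤ D * ‖J u‖) :
    HasCopy Ω n D E := by
  have hD : 1 ≤ D := pos_of_copy (J := J.toLinearMap) (R := J.symm.toLinearMap)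
    (fun u => J.symm_apply_apply u) hσ
  refine ⟨J.toLinearMap, J.symm.toLinearMap, fun u => J.symm_apply_apply u, fun x => ?_, hσ⟩
  have : J.toLinearMap (J.symm.toLinearMap x) = x := J.apply_symm_apply x
  rw [this]
  have := norm_nonneg x
  nlinarith

theorem cube_of_equiv {n : ℕ} {D : ℝ} {E : Type*} [NormedAddCommGroup E] [NormedSpace ℝ E]
    (J : ((Fin n → ℤˣ) → ℝ) ≃ₗ[ℝ] E)
    (hσ : ∀ σ : (Fin n → ℤˣ) → (Fin n → ℤˣ), IsSubst σ → ∀ u, ‖J (u ∘ σ)‖ ≤ D * ‖J u‖) :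
    HasCube n D D E := by
  have hD : 1 ≤ D := one_le_of_copy (J := J.toLinearMap) (R := J.symm.toLinearMap)
    (fun u => J.symm_apply_apply u) hσ
  refine ⟨J.toLinearMap, J.symm.toLinearMap, fun u => J.symm_apply_apply u, fun x => ?_, hσ⟩
  have : J.toLinearMap (J.symm.toLinearMap x) = x := J.apply_symm_apply x
  rw [this]
  have := norm_nonneg x
  nlinarith

/-- The bound for the `K`-convexity constant on the class. -/
theorem kbound (Ω : Type*) [Fintype Ω] [Nontrivial Ω] (q r C D : ℝ) (hq : 0 < q) (hr : 0 < r) :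
    ∃ K : ℝ, ∀ (n : ℕ) (E : Type*) [NormedAddCommGroup E] [NormedSpace ℝ E]
      (J : ((Fin n → Ω) → ℝ) ≃ₗ[ℝ] E),
      (∀ σ : (Fin n → Ω) → (Fin n → Ω), IsSub σ → ∀ u, ‖J (u ∘ σ)‖ ≤ D * ‖J u‖) →
      CotypeWith q C E → CotypeWith r C (E →L[ℝ] ℝ) → KConvexWith K E := by
  classical
  obtain ⟨n₀, h⟩ := not_both q r C D (D * D) hq hr
  refine ⟨4 ^ (Fintype.card Ω) ^ n₀, fun n E _ _ J hσ h1 h2 => ?_⟩
  have hn : n < n₀ := by
    by_contra hn
    push Not at hn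
    exact h n hn E (cube_of_copy (copy_of_equiv J hσ)) ⟨h1, h2⟩
  haveI : FiniteDimensional ℝ E := LinearEquiv.finiteDimensional J
  refine kconvex_of_finrank ?_
  rw [← J.finrank_eq, Module.finrank_fintype_fun_eq_card, Fintype.card_fun, Fintype.card_fin]
  exact Nat.pow_le_pow_right Fintype.card_pos hn.le

/-- The bound for the `K`-convexity constant of interpolation spaces. -/
theorem kbound_interp (q r C D : ℝ) (hq : 0 < q) (hr : 0 < r) :
    ∃ K : ℝ, ∀ (n : ℕ) (E : Type*) [NormedAddCommGroup E] [NormedSpace ℝ E]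
      (J : ((Fin n → ℤˣ) → ℝ) ≃ₗ[ℝ] E),
      (∀ T : ((Fin n → ℤˣ) → ℝ) →ₗ[ℝ] ((Fin n → ℤˣ) → ℝ),
        (∀ u, wiener (T u) ≤ wiener u) → (∀ u, ‖T u‖ ≤ ‖u‖) → ∀ u, ‖J (T u)‖ ≤ D * ‖J u‖) →
      CotypeWith q C E → CotypeWith r C (E →L[ℝ] ℝ) → KConvexWith K E := by
  obtain ⟨n₀, h⟩ := not_both q r C D D hq hr
  refine ⟨4 ^ 2 ^ n₀, fun n E _ _ J hT h1 h2 => ?_⟩
  have hσ := subst_of_interp J.toLinearMap hT
  have hn : n < n₀ := by
    by_contra hn
    push Not at hn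
    exact h n hn E (cube_of_equiv J hσ) ⟨h1, h2⟩
  haveI : FiniteDimensional ℝ E := LinearEquiv.finiteDimensional J
  refine kconvex_of_finrank ?_
  rw [← J.finrank_eq, Module.finrank_fintype_fun_eq_card, Fintype.card_fun, Fintype.card_fin]
  have : Fintype.card ℤˣ = 2 := rfl
  rw [this]
  exact Nat.pow_le_pow_right (by norm_num) hn.le

end Vale.Agent.P111.H698
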