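import Vale.Agent.P111.R2.H698.Sys

set_option linter.all false

/-! The base step: products of three signs cost at most `2^m` times a single sign. -/

namespace Vale.Agent.P111.H698

open Finset QL

section Fourier

variable {I : Type*} [Fintype I] [DecidableEq I]

/-- Walsh functions. -/
noncomputable def chi (T : Finset I) (x : I → ℤˣ) : ℝ := ∏ i ∈ T, sg (x i)

theorem chi_mul (T : Finset I) (x y : I → ℤˣ) : chi T (x * y) = chi T x * chi T y := by
  simp [chi, sg_mul, Finset.prod_mul_distrib]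

theorem chi_mul_self (T : Finset I) (x : I → ℤˣ) : chi T x * chi T x = 1 := by
  simp [chi, ← Finset.prod_mul_distrib, sg_mul_self]

theorem abs_chi (T : Finset I) (x : I → ℤˣ) : |chi T x| = 1 := by
  simp [chi, Finset.abs_prod, abs_sg]

theorem chi_singleton (i : I) (x : I → ℤˣ) : chi {i} x = sg (x i) := by simp [chi]

/-- Walsh coefficients. -/
noncomputable def coef (T : Finset I) (u : (I → ℤˣ) → ℝ) : ℝ := avg fun η => chi T η * u η

theorem coef_add (T : Finset I) (u v : (I → ℤˣ) → ℝ) : coef T (u + v) = coef T u + coef T v := by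
  simp only [coef, Pi.add_apply, mul_add]
  exact avg_add _ _

theorem coef_smul (T : Finset I) (c : ℝ) (u : (I → ℤˣ) → ℝ) : coef T (c • u) = c * coef T u := by
  simp only [coef, Pi.smul_apply, smul_eq_mul]
  rw [← avg_mul_left]
  congr 1; ext η; ring

theorem sum_chi (ε η : I → ℤˣ) :
    ∑ T : Finset I, chi T ε * chi T η = if ε = η then (2 : ℝ) ^ Fintype.card I else 0 := by
  have h : ∑ T : Finset I, chi T ε * chi T η = ∏ i : I, (1 + sg (ε i) * sg (η i)) := by
    rw [Finset.prod_one_add, Finset.powerset_univ]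
    exact Finset.sum_congr rfl fun T _ => by simp [chi, Finset.prod_mul_distrib]
  rw [h]
  split_ifs with he
  · subst he
    simp only [sg_mul_self]
    rw [Finset.prod_const, Finset.card_univ]
    norm_num
  · obtain ⟨i, hi⟩ := Function.ne_iff.1 he
    apply Finset.prod_eq_zero (Finset.mem_univ i)
    have : sg (ε i) * sg (η i) = -1 := by
      rcases Int.units_eq_one_or (ε i) with h1 | h1 <;> rcases Int.units_eq_one_or (η i) with h2 | h2 <;>
        simp_all [sg]
    rw [this]; ring

theorem inversion (u : (I → ℤˣ) → ℝ) (ε : I → ℤˣ) : u ε = ∑ T : Finset I, chi T ε * coef T u := by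
  have h : ∀ T : Finset I, chi T ε * coef T u = avg fun η => (chi T ε * chi T η) * u η := by
    intro T
    rw [coef, ← avg_mul_left]
    congr 1; ext η; ring
  simp only [h]
  have h2 : ∑ T : Finset I, (avg fun η => (chi T ε * chi T η) * u η)
      = avg fun η => ∑ T : Finset I, (chi T ε * chi T η) * u η := (avg_sum _ _).symm
  rw [h2]
  have h3 : ∀ η, ∑ T : Finset I, (chi T ε * chi T η) * u η
      = if ε = η then (2 : ℝ) ^ Fintype.card I * u η else 0 := by
    intro η
    rw [← Finset.sum_mul, sum_chi]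
    split_ifs <;> simp
  simp only [h3, avg]
  rw [Finset.sum_ite_eq]
  simp only [Finset.mem_univ, if_true, smul_eq_mul]
  have hcard : (Fintype.card (I → ℤˣ) : ℝ) = 2 ^ Fintype.card I := by
    rw [Fintype.card_fun]
    norm_num
  rw [hcard]
  field_simp

theorem coef_chi_self (T : Finset I) : coef T (chi T) = 1 := by
  simp only [coef, chi_mul_self]
  exact avg_const _

theorem chi_neg (T : Finset I) (x : I → ℤˣ) : chi T (-x) = (-1) ^ T.card * chi T x := by
  have : ∀ i, sg ((-x) i) = (-1) * sg (x i) := fun i => by simp [sg]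
  simp only [chi, this, Finset.prod_mul_distrib, Finset.prod_const]

end Fourier

namespace Sys

variable {E : Type*} [NormedAddCommGroup E] [NormedSpace ℝ E] {D B : ℝ}

section

variable {I : Type*} [Fintype I] [DecidableEq I] (S : Sys I E D B)

theorem isSubst_mul (η : I → ℤˣ) : IsSubst (fun x : I → ℤˣ => η * x) :=
  fun j => Or.inl ⟨j, η j, fun _ => rfl⟩

theorem coef_smul_chi (T : Finset I) (u : (I → ℤˣ) → ℝ) :
    coef T u • chi T = avg fun η : I → ℤˣ => chi T η • (u ∘ fun x => η * x) := by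
  ext x
  have : (avg fun η : I → ℤˣ => chi T η • (u ∘ fun x => η * x)) x
      = avg fun η : I → ℤˣ => chi T η * u (η * x) := by
    simp [avg, Finset.sum_apply]
  rw [this]
  have h2 : (avg fun η : I → ℤˣ => chi T η * u (η * x))
      = avg fun η : I → ℤˣ => chi T (η * x) * u (η * x) * chi T x := by
    congr 1; ext η
    rw [chi_mul]
    have := chi_mul_self T x
    linear_combination (-(chi T η * u (η * x))) * this
  rw [h2]
  have h3 := avg_comp_equiv (Equiv.mulRight x) (fun η : I → ℤˣ => chi T η * u η * chi T x)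
  simp only [Equiv.coe_mulRight] at h3
  rw [h3, avg_mul_right]
  simp [coef]

theorem coef_bound (T : Finset I) (u : (I → ℤˣ) → ℝ) : |coef T u| * S.N (chi T) ≤ S.N u := by
  rw [← S.N_smul, coef_smul_chi]
  refine S.N_avg _ _ fun η => ?_
  rw [S.N_smul, abs_chi, one_mul]
  exact S.N_subst _ (isSubst_mul η) u

theorem chi_ne_zero (T : Finset I) : (chi T : (I → ℤˣ) → ℝ) ≠ 0 := by
  intro h
  have := congrFun h 1
  simp [chi, sg] at this

theorem N_chi_pos (T : Finset I) : 0 < S.N (chi T) := S.N_pos (chi_ne_zero T)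

include S in
theorem one_le_B [Nonempty I] : 1 ≤ B := by
  have h1 := S.R_le (S.J (chi ∅))
  rw [S.RJ] at h1
  have h2 := S.J_le (chi ∅)
  have h3 := S.N_chi_pos ∅
  by_contra hB
  push Not at hB
  have h4 : 0 ≤ ‖S.J (chi ∅)‖ := norm_nonneg _
  rcases h4.eq_or_lt with h5 | h5
  · rw [← h5] at h1; linarith
  · nlinarith

/-- The Walsh coefficients as functionals. -/
noncomputable def ell (T : Finset I) : E →L[ℝ] ℝ :=
  LinearMap.mkContinuous
    { toFun := fun e => coef T (S.R e)
      map_add' := fun a b => by rw [map_add, coef_add]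
      map_smul' := fun c a => by rw [map_smul, coef_smul]; simp } (B / S.N (chi T)) (fun e => by
        have h := S.coef_bound T (S.R e)
        have h2 := S.R_le e
        have h3 := S.N_chi_pos T
        rw [Real.norm_eq_abs]
        change |coef T (S.R e)| ≤ _
        rw [div_mul_eq_mul_div, le_div_iff₀ h3]
        linarith)

theorem ell_apply (T : Finset I) (e : E) : S.ell T e = coef T (S.R e) := rfl

end

section Base

variable {m : ℕ} (S : Sys (Fin m) E D B)

theorem N_chi_single_le (i j : Fin m) : S.N (chi {i}) ≤ S.N (chi {j}) := by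
  have h : IsSubst (fun (x : Fin m → ℤˣ) (_ : Fin m) => x i) :=
    fun k => Or.inl ⟨i, 1, fun x => by simp⟩
  have := S.N_subst _ h (chi {j})
  have he : (chi {j} : (Fin m → ℤˣ) → ℝ) ∘ (fun (x : Fin m → ℤˣ) (_ : Fin m) => x i) = chi {i} := by
    ext x; simp [chi_singleton]
  rwa [he] at this

theorem N_three_le {a b c : Fin m} (hab : a ≠ b) (hac : a ≠ c) (hbc : b ≠ c) (T : Finset (Fin m))
    (hT : 3 ≤ T.card) : S.N (chi {a, b, c}) ≤ S.N (chi T) := by
  obtain ⟨T', hT', hc⟩ := Finset.exists_subset_card_eq hT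
  obtain ⟨t1, t2, t3, h12, h13, h23, rfl⟩ := Finset.card_eq_three.1 hc
  let σ : (Fin m → ℤˣ) → (Fin m → ℤˣ) := fun x k =>
    if k = t1 then x a else if k = t2 then x b else if k = t3 then x c else 1
  have hσ : IsSubst σ := by
    intro k
    by_cases h1 : k = t1
    · exact Or.inl ⟨a, 1, fun x => by simp [σ, h1]⟩
    by_cases h2 : k = t2
    · exact Or.inl ⟨b, 1, fun x => by simp only [σ, if_neg h1, if_pos h2, one_mul]⟩
    by_cases h3 : k = t3
    · exact Or.inl ⟨c, 1, fun x => by simp only [σ, if_neg h1, if_neg h2, if_pos h3, one_mul]⟩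
    exact Or.inr ⟨1, fun x => by simp [σ, h1, h2, h3]⟩
  have := S.N_subst σ hσ (chi T)
  have he : (chi T : (Fin m → ℤˣ) → ℝ) ∘ σ = chi {a, b, c} := by
    ext x
    simp only [Function.comp, chi]
    rw [← Finset.prod_subset hT' (f := fun i => sg (σ x i))]
    · rw [Finset.prod_insert (by simp [h12, h13]), Finset.prod_insert (by simp [h23]),
        Finset.prod_singleton, Finset.prod_insert (by simp [hab, hac]),
        Finset.prod_insert (by simp [hbc]), Finset.prod_singleton]
      simp [σ, h12.symm, h13.symm, h23.symm]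
    · intro k _ hk
      simp only [Finset.mem_insert, Finset.mem_singleton, not_or] at hk
      simp [σ, hk.1, hk.2.1, hk.2.2, sg_one]
  rwa [he] at this

theorem diag_bound (i0 : Fin m) (u : (Fin m → ℤˣ) → ℝ) (ε : Fin m → ℤˣ) :
    |(u ε - u (-ε)) / 2| * S.N (chi {i0}) ≤ S.N u := by
  have hs : ∀ ε : Fin m → ℤˣ, IsSubst (fun (x : Fin m → ℤˣ) (j : Fin m) => ε j * x i0) :=
    fun ε j => Or.inl ⟨i0, ε j, fun x => rfl⟩
  have key : ((u ε - u (-ε)) / 2) • (chi {i0} : (Fin m → ℤˣ) → ℝ) =
      (2 : ℝ)⁻¹ • (u ∘ (fun (x : Fin m → ℤˣ) (j : Fin m) => ε j * x i0)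
        - u ∘ (fun (x : Fin m → ℤˣ) (j : Fin m) => (-ε) j * x i0)) := by
    ext x
    simp only [Pi.smul_apply, smul_eq_mul, chi_singleton, Pi.sub_apply, Function.comp]
    rcases Int.units_eq_one_or (x i0) with h | h
    · have e1 : (fun j : Fin m => ε j * x i0) = ε := by ext j; simp [h]
      have e2 : (fun j : Fin m => (-ε) j * x i0) = -ε := by ext j; simp [h]
      rw [e1, e2, h, sg_one]; ring
    · have e1 : (fun j : Fin m => ε j * x i0) = -ε := by ext j; simp [h]
      have e2 : (fun j : Fin m => (-ε) j * x i0) = ε := by ext j; simp [h]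
      rw [e1, e2, h, sg_neg_one]; ring
  rw [← S.N_smul, key, S.N_smul]
  have h1 := S.N_sub (u ∘ (fun (x : Fin m → ℤˣ) (j : Fin m) => ε j * x i0))
    (u ∘ (fun (x : Fin m → ℤˣ) (j : Fin m) => (-ε) j * x i0))
  have h2 := S.N_subst _ (hs ε) u
  have h3 := S.N_subst _ (hs (-ε)) u
  rw [abs_of_pos (by norm_num)]
  linarith

/-- The base step. -/
theorem base {r C : ℝ} (hr : 0 < r) (hcot : CotypeWith r C (E →L[ℝ] ℝ)) {a b c : Fin m}
    (hab : a ≠ b) (hac : a ≠ c) (hbc : b ≠ c) (hm : 2 * (C * B) ≤ (m : ℝ) ^ (1 / r)) :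
    S.N (chi {a, b, c}) ≤ 2 ^ m * S.N (chi {a}) := by
  haveI : Nonempty (Fin m) := ⟨a⟩
  set w := S.N (chi {a}) with hw
  set w3 := S.N (chi {a, b, c}) with hw3
  have hwpos : 0 < w := S.N_chi_pos _
  have hw3pos : 0 < w3 := S.N_chi_pos _
  have hB : 1 ≤ B := S.one_le_B
  -- the functionals
  let z : Fin m → (E →L[ℝ] ℝ) := fun i => w • S.ell {i}
  have hz : ∀ i, 1 ≤ ‖z i‖ := by
    intro i
    have h1 : z i (S.J (chi {i})) = w := by
      simp [z, ell_apply, S.RJ, coef_chi_self]
    have h2 := (z i).le_opNorm (S.J (chi {i}))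
    rw [h1, Real.norm_eq_abs, abs_of_pos hwpos] at h2
    have h3 : ‖S.J (chi {i})‖ ≤ w := (S.J_le _).trans (S.N_chi_single_le i a)
    have h4 : 0 ≤ ‖z i‖ := norm_nonneg _
    have h5 : w * 1 ≤ w * ‖z i‖ := by nlinarith
    exact le_of_mul_le_mul_left h5 hwpos
  have hbound : ∀ ε : Fin m → ℤˣ, ‖∑ i, sg (ε i) • z i‖ ≤ B * (1 + 2 ^ m * w / w3) := by
    intro ε
    refine ContinuousLinearMap.opNorm_le_bound _ (by positivity) fun e => ?_
    set u := S.R e with hu
    have e1 : (∑ i, sg (ε i) • z i) e = w * ∑ i, sg (ε i) * coef {i} u := by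
      simp only [z, ContinuousLinearMap.sum_apply, ContinuousLinearMap.smul_apply, smul_eq_mul,
        ell_apply, Finset.mul_sum]
      exact Finset.sum_congr rfl fun i _ => by ring
    have e2 : (u ε - u (-ε)) / 2 = ∑ T : Finset (Fin m), ((1 - (-1) ^ T.card) / 2) * (chi T ε * coef T u) := by
      rw [inversion u ε, inversion u (-ε), ← Finset.sum_sub_distrib, Finset.sum_div]
      exact Finset.sum_congr rfl fun T _ => by rw [chi_neg]; ring
    -- split
    have e3 : ∑ i, sg (ε i) * coef {i} u =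
        ∑ T ∈ (univ : Finset (Finset (Fin m))).filter (fun T => T.card = 1),
          ((1 - (-1) ^ T.card) / 2) * (chi T ε * coef T u) := by
      symm
      refine Finset.sum_bij' (i := fun T _ => if h : T.Nonempty then T.min' h else a)
        (j := fun i _ => {i}) ?_ ?_ ?_ ?_ ?_
      · intro T _; exact Finset.mem_univ _
      · intro i _; simp
      · intro T hT
        obtain ⟨i, rfl⟩ := Finset.card_eq_one.1 (Finset.mem_filter.1 hT).2
        simp
      · intro i _; simp
      · intro T hT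
        obtain ⟨i, rfl⟩ := Finset.card_eq_one.1 (Finset.mem_filter.1 hT).2
        simp [chi_singleton]
    have e4 := Finset.sum_filter_add_sum_filter_not (univ : Finset (Finset (Fin m)))
      (fun T => T.card = 1) (fun T => ((1 - (-1) ^ T.card) / 2) * (chi T ε * coef T u))
    rw [← e2, ← e3] at e4
    have hrest : |∑ T ∈ (univ : Finset (Finset (Fin m))).filter (fun T => ¬ T.card = 1),
          ((1 - (-1 : ℝ) ^ T.card) / 2) * (chi T ε * coef T u)| ≤ 2 ^ m * (S.N u / w3) := by
      refine (Finset.abs_sum_le_sum_abs _ _).trans ?_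
      have hterm : ∀ T ∈ (univ : Finset (Finset (Fin m))).filter (fun T => ¬ T.card = 1),
          |((1 - (-1 : ℝ) ^ T.card) / 2) * (chi T ε * coef T u)| ≤ S.N u / w3 := by
        intro T hT
        have hT1 := (Finset.mem_filter.1 hT).2
        have hnn : 0 ≤ S.N u / w3 := div_nonneg (S.N_nonneg _) hw3pos.le
        rcases Nat.even_or_odd T.card with he | ho
        · rw [he.neg_one_pow]; simpa using hnn
        · have h3 : 3 ≤ T.card := by
            rcases ho with ⟨k, hk⟩
            omega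
          rw [ho.neg_one_pow, abs_mul, abs_mul, abs_chi]
          have h4 := S.coef_bound T u
          have h5 := S.N_three_le hab hac hbc T h3
          rw [le_div_iff₀ hw3pos]
          have h6 : 0 ≤ |coef T u| := abs_nonneg _
          have h7 : |(1 - (-1 : ℝ)) / 2| = 1 := by norm_num
          rw [h7]
          nlinarith
      refine (Finset.sum_le_sum hterm).trans ?_
      rw [Finset.sum_const, nsmul_eq_mul]
      have hcard : (((univ : Finset (Finset (Fin m))).filter (fun T => ¬ T.card = 1)).card : ℝ) ≤ 2 ^ m := by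
        have h := Finset.card_filter_le (univ : Finset (Finset (Fin m))) (fun T => ¬ T.card = 1)
        rw [Finset.card_univ, Fintype.card_finset, Fintype.card_fin] at h
        exact_mod_cast h
      have hnn : 0 ≤ S.N u / w3 := div_nonneg (S.N_nonneg _) hw3pos.le
      gcongr
    have hd := S.diag_bound a u ε
    have hR : S.N u ≤ B * ‖e‖ := S.R_le e
    rw [e1, Real.norm_eq_abs, abs_mul, abs_of_pos hwpos]
    have e5 : ∑ i, sg (ε i) * coef {i} u = (u ε - u (-ε)) / 2 -
        ∑ T ∈ (univ : Finset (Finset (Fin m))).filter (fun T => ¬ T.card = 1),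
          ((1 - (-1) ^ T.card) / 2) * (chi T ε * coef T u) := by linarith
    rw [e5]
    calc w * |(u ε - u (-ε)) / 2 -
        ∑ T ∈ (univ : Finset (Finset (Fin m))).filter (fun T => ¬ T.card = 1),
          ((1 - (-1) ^ T.card) / 2) * (chi T ε * coef T u)|
        ≤ w * (|(u ε - u (-ε)) / 2| + 2 ^ m * (S.N u / w3)) := by
          gcongr
          exact (abs_sub _ _).trans (by linarith)
      _ = |(u ε - u (-ε)) / 2| * w + 2 ^ m * w / w3 * S.N u := by ring
      _ ≤ S.N u + 2 ^ m * w / w3 * S.N u := by linarith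
      _ = (1 + 2 ^ m * w / w3) * S.N u := by ring
      _ ≤ (1 + 2 ^ m * w / w3) * (B * ‖e‖) := by gcongr
      _ = B * (1 + 2 ^ m * w / w3) * ‖e‖ := by ring
  have hC := hcot m z
  have hL : (m : ℝ) ^ (1 / r) ≤ (∑ i, ‖z i‖ ^ r) ^ (1 / r) := by
    refine Real.rpow_le_rpow (by positivity) ?_ (by positivity)
    calc (m : ℝ) = ∑ i : Fin m, (1 : ℝ) := by simp
      _ ≤ ∑ i, ‖z i‖ ^ r := by
          refine Finset.sum_le_sum fun i _ => ?_
          exact Real.one_le_rpow (hz i) hr.le
  have hA : (avg fun ε : Fin m → ℤˣ => ‖∑ i, sg (ε i) • z i‖ ^ 2) ^ (1 / 2 : ℝ)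
      ≤ B * (1 + 2 ^ m * w / w3) := by
    have h1 : (avg fun ε : Fin m → ℤˣ => ‖∑ i, sg (ε i) • z i‖ ^ 2)
        ≤ (B * (1 + 2 ^ m * w / w3)) ^ 2 := by
      refine avg_le_const fun ε => ?_
      have := hbound ε
      gcongr
    have h0 : 0 ≤ (avg fun ε : Fin m → ℤˣ => ‖∑ i, sg (ε i) • z i‖ ^ 2) :=
      avg_nonneg fun ε => by positivity
    calc (avg fun ε : Fin m → ℤˣ => ‖∑ i, sg (ε i) • z i‖ ^ 2) ^ (1 / 2 : ℝ)
        ≤ ((B * (1 + 2 ^ m * w / w3)) ^ 2) ^ (1 / 2 : ℝ) := Real.rpow_le_rpow h0 h1 (by norm_num)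
      _ = B * (1 + 2 ^ m * w / w3) := by
          rw [← Real.sqrt_eq_rpow, Real.sqrt_sq (by positivity)]
  have h0 : 0 ≤ (avg fun ε : Fin m → ℤˣ => ‖∑ i, sg (ε i) • z i‖ ^ 2) ^ (1 / 2 : ℝ) :=
    Real.rpow_nonneg (avg_nonneg fun ε => by positivity) _
  have hmpos : (0 : ℝ) < (m : ℝ) ^ (1 / r) := by
    have : 0 < m := Fin.pos a
    positivity
  have hCpos : 0 < C := by
    by_contra hcon
    push Not at hcon
    have : C * (avg fun ε : Fin m → ℤˣ => ‖∑ i, sg (ε i) • z i‖ ^ 2) ^ (1 / 2 : ℝ) ≤ 0 :=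
      mul_nonpos_of_nonpos_of_nonneg hcon h0
    linarith
  have hfin : 2 * (C * B) ≤ C * (B * (1 + 2 ^ m * w / w3)) := by
    calc 2 * (C * B) ≤ (m : ℝ) ^ (1 / r) := hm
      _ ≤ (∑ i, ‖z i‖ ^ r) ^ (1 / r) := hL
      _ ≤ C * (avg fun ε : Fin m → ℤˣ => ‖∑ i, sg (ε i) • z i‖ ^ 2) ^ (1 / 2 : ℝ) := hC
      _ ≤ C * (B * (1 + 2 ^ m * w / w3)) := by gcongr
  have hCB : 0 < C * B := by positivity
  have h2 : 2 ≤ 1 + 2 ^ m * w / w3 := by
    have : C * B * 2 ≤ C * B * (1 + 2 ^ m * w / w3) := by linarith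
    exact le_of_mul_le_mul_left this hCB
  have h3 : 1 ≤ 2 ^ m * w / w3 := by linarith
  rwa [le_div_iff₀ hw3pos, one_mul] at h3

end Base

end Sys

end Vale.Agent.P111.H698
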