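import Vale.Agent.P111.R2.H698.Sys

set_option linter.all false

/-! Composition of a substitution invariant norm with a homogeneous map. -/

namespace Vale.Agent.P111.H698

open Finset QL

section Mean

variable {I K : Type*} [Fintype I] [DecidableEq I]

/-- The signed permutations preserving `F`. -/
def Gp (F : (I → ℤˣ) → (K → ℤˣ)) : Type _ :=
  {h : (I → ℤˣ) → (I → ℤˣ) // IsSubst h ∧ Function.Injective h ∧ F ∘ h = F}

instance (F : (I → ℤˣ) → (K → ℤˣ)) : Finite (Gp F) := by unfold Gp; infer_instance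

noncomputable instance (F : (I → ℤˣ) → (K → ℤˣ)) : Fintype (Gp F) := Fintype.ofFinite _

instance (F : (I → ℤˣ) → (K → ℤˣ)) : Nonempty (Gp F) :=
  ⟨⟨id, isSubst_id, Function.injective_id, rfl⟩⟩

/-- The conditional expectation. -/
noncomputable def mean (F : (I → ℤˣ) → (K → ℤˣ)) (G : (I → ℤˣ) → ℝ) : (I → ℤˣ) → ℝ :=
  avg fun h : Gp F => G ∘ h.1

theorem mean_apply (F : (I → ℤˣ) → (K → ℤˣ)) (G : (I → ℤˣ) → ℝ) (a : I → ℤˣ) :
    mean F G a = avg fun h : Gp F => G (h.1 a) := by
  simp [mean, avg, Finset.sum_apply]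

theorem mean_congr {F : (I → ℤˣ) → (K → ℤˣ)} (G : (I → ℤˣ) → ℝ) (g : Gp F) (a : I → ℤˣ) :
    mean F G (g.1 a) = mean F G a := by
  rw [mean_apply, mean_apply]
  let f : Gp F → Gp F := fun h => ⟨h.1 ∘ g.1, h.2.1.comp g.2.1, h.2.2.1.comp g.2.2.1, by
    rw [← Function.comp_assoc, h.2.2.2, g.2.2.2]⟩
  have hf : Function.Injective f := by
    intro h h' hh
    have h1 : h.1 ∘ g.1 = h'.1 ∘ g.1 := congrArg Subtype.val hh
    have hs : Function.Surjective g.1 := Finite.surjective_of_injective g.2.2.1
    exact Subtype.ext (hs.injective_comp_right h1)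
  have hb : Function.Bijective f := Finite.injective_iff_bijective.1 hf
  exact avg_comp_equiv (Equiv.ofBijective f hb) (fun h : Gp F => G (h.1 a))

end Mean

namespace Sys

variable {I K E : Type*} [NormedAddCommGroup E] [NormedSpace ℝ E] {D B : ℝ} [Fintype I]
  [DecidableEq I]

/-- Composition of a system with a homogeneous map. -/
noncomputable def comp (S : Sys I E D B) (F : (I → ℤˣ) → (K → ℤˣ))
    (hlift : ∀ τ : (K → ℤˣ) → (K → ℤˣ), IsSubst τ →
      ∃ τ' : (I → ℤˣ) → (I → ℤˣ), IsSubst τ' ∧ ∀ x, F (τ' x) = τ (F x))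
    (htrans : ∀ a b, F a = F b → ∃ h : (I → ℤˣ) → (I → ℤˣ),
      IsSubst h ∧ Function.Injective h ∧ (∀ x, F (h x) = F x) ∧ h a = b)
    (hsurj : Function.Surjective F) : Sys K E D B where
  J := { toFun := fun u => S.J (u ∘ F)
         map_add' := fun u v => by
          rw [← map_add]; rfl
         map_smul' := fun c u => by
          rw [RingHom.id_apply, ← map_smul]; rfl }
  R := { toFun := fun e y => mean F (S.R e) (Function.surjInv hsurj y)
         map_add' := fun a b => by
          ext y
          simp only [mean_apply, map_add, Pi.add_apply]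
          exact avg_add _ _
         map_smul' := fun c a => by
          ext y
          simp only [mean_apply, map_smul, Pi.smul_apply, RingHom.id_apply]
          exact avg_smul _ _ }
  N := fun u => S.N (u ∘ F)
  RJ := by
    intro u
    ext y
    change mean F (S.R (S.J (u ∘ F))) (Function.surjInv hsurj y) = u y
    rw [S.RJ, mean_apply]
    have : ∀ h : Gp F, (u ∘ F) (h.1 (Function.surjInv hsurj y)) = u y := by
      intro h
      have h1 := congrFun h.2.2.2 (Function.surjInv hsurj y)
      simp only [Function.comp] at h1 ⊢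
      rw [h1, Function.surjInv_eq hsurj]
    simp only [this]
    exact avg_const _
  N_add := fun u v => S.N_add (u ∘ F) (v ∘ F)
  N_smul := fun c u => S.N_smul c (u ∘ F)
  N_subst := by
    intro τ hτ u
    obtain ⟨τ', h1, h2⟩ := hlift τ hτ
    have h3 := S.N_subst τ' h1 (u ∘ F)
    have h4 : (u ∘ F) ∘ τ' = (u ∘ τ) ∘ F := by
      ext x; simp [h2]
    rwa [h4] at h3
  J_le := fun u => S.J_le (u ∘ F)
  N_le := fun u => S.N_le (u ∘ F)
  R_le := by
    intro e
    refine le_trans ?_ (S.R_le e)
    have h1 : ((fun y => mean F (S.R e) (Function.surjInv hsurj y)) ∘ F) = mean F (S.R e) := by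
      ext x
      simp only [Function.comp]
      obtain ⟨h, h1, h2, h3, h4⟩ := htrans x (Function.surjInv hsurj (F x))
        (Function.surjInv_eq hsurj (F x)).symm
      rw [← h4]
      exact mean_congr (S.R e) ⟨h, h1, h2, funext h3⟩ x
    change S.N ((fun y => mean F (S.R e) (Function.surjInv hsurj y)) ∘ F) ≤ _
    rw [h1]
    exact S.N_avg _ _ fun h => S.N_subst _ h.2.1 _

theorem comp_N (S : Sys I E D B) (F : (I → ℤˣ) → (K → ℤˣ)) (hlift) (htrans) (hsurj)
    (u : (K → ℤˣ) → ℝ) : (S.comp F hlift htrans hsurj).N u = S.N (u ∘ F) := rfl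

end Sys

end Vale.Agent.P111.H698
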