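import Vale.Agent.P111.R2.H698.Core

set_option linter.all false

/-! From complemented copies to `ℓ_∞^M`. -/

namespace Vale.Agent.P111.H698

open Finset QL Mux

section

variable {n : ℕ} {I X : Type*} [NormedAddCommGroup X] [NormedSpace ℝ X] {D D' : ℝ}

theorem one_le_of_copy {J : ((Fin n → ℤˣ) → ℝ) →ₗ[ℝ] X} {R : X →ₗ[ℝ] ((Fin n → ℤˣ) → ℝ)}
    (hRJ : ∀ u, R (J u) = u)
    (hσ : ∀ σ : (Fin n → ℤˣ) → (Fin n → ℤˣ), IsSubst σ → ∀ u, ‖J (u ∘ σ)‖ ≤ D * ‖J u‖) : 1 ≤ D := by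
  have h1 := hσ id isSubst_id (fun _ => 1)
  have h2 : J (fun _ => 1) ≠ 0 := by
    intro h
    have h3 := hRJ (fun _ => 1)
    rw [h, map_zero] at h3
    have := congrFun h3 1
    simp at this
  have h3 : 0 < ‖J (fun _ => 1)‖ := norm_pos_iff.2 h2
  rw [Function.comp_id] at h1
  by_contra hD
  push Not at hD
  nlinarith

variable (I) in
/-- reading the coordinates given by an injection. -/
def rd (ι : I → Fin n) (x : Fin n → ℤˣ) : I → ℤˣ := fun i => x (ι i)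

/-- extending by one. -/
noncomputable def xt (ι : I → Fin n) (x : I → ℤˣ) : Fin n → ℤˣ := Function.extend ι x 1

theorem isSubst_rd (ι : I → Fin n) : IsSubst (rd I ι) := fun i => Or.inl ⟨ι i, 1, fun x => by simp [rd]⟩

theorem isSubst_xt {ι : I → Fin n} (hι : Function.Injective ι) : IsSubst (xt ι) := by
  intro k
  by_cases h : ∃ i, ι i = k
  · obtain ⟨i, rfl⟩ := h
    exact Or.inl ⟨i, 1, fun x => by simp [xt, hι.extend_apply]⟩
  · exact Or.inr ⟨1, fun x => by rw [xt, Function.extend_apply' _ _ _ h]; rfl⟩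

theorem rd_xt {ι : I → Fin n} (hι : Function.Injective ι) (x : I → ℤˣ) : rd I ι (xt ι x) = x := by
  funext i
  simp [rd, xt, hι.extend_apply]

/-- the system coming from a copy. -/
noncomputable def Sys.ofCopy [Finite I] {ι : I → Fin n} (hι : Function.Injective ι)
    (J : ((Fin n → ℤˣ) → ℝ) →ₗ[ℝ] X) (R : X →ₗ[ℝ] ((Fin n → ℤˣ) → ℝ))
    (hRJ : ∀ u, R (J u) = u) (hJR : ∀ x, ‖J (R x)‖ ≤ D' * ‖x‖)
    (hσ : ∀ σ : (Fin n → ℤˣ) → (Fin n → ℤˣ), IsSubst σ → ∀ u, ‖J (u ∘ σ)‖ ≤ D * ‖J u‖) :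
    Sys I X D (D * D') where
  J := { toFun := fun u => J (u ∘ rd I ι)
         map_add' := fun u v => by rw [← map_add]; rfl
         map_smul' := fun c u => by rw [RingHom.id_apply, ← map_smul]; rfl }
  R := { toFun := fun e => R e ∘ xt ι
         map_add' := fun a b => by rw [map_add]; rfl
         map_smul' := fun c a => by rw [map_smul]; rfl }
  N := fun u => ⨆ σ : {σ : (Fin n → ℤˣ) → (I → ℤˣ) // IsSubst σ}, ‖J (u ∘ σ.1)‖
  RJ := by
    intro u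
    change R (J (u ∘ rd I ι)) ∘ xt ι = u
    rw [hRJ]
    ext x
    simp [rd_xt hι]
  N_add := by
    intro u v
    have hb : ∀ u : (I → ℤˣ) → ℝ, BddAbove (Set.range
      fun σ : {σ : (Fin n → ℤˣ) → (I → ℤˣ) // IsSubst σ} => ‖J (u ∘ σ.1)‖) :=
      fun u => (Set.finite_range _).bddAbove
    haveI : Nonempty {σ : (Fin n → ℤˣ) → (I → ℤˣ) // IsSubst σ} := ⟨⟨rd I ι, isSubst_rd ι⟩⟩
    refine ciSup_le fun σ => ?_
    have h : (u + v) ∘ σ.1 = u ∘ σ.1 + v ∘ σ.1 := rfl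
    rw [h, map_add]
    exact (norm_add_le _ _).trans (add_le_add (le_ciSup (hb u) σ) (le_ciSup (hb v) σ))
  N_smul := by
    intro c u
    rw [Real.mul_iSup_of_nonneg (abs_nonneg c)]
    congr 1
    ext σ
    have h : (c • u) ∘ σ.1 = c • (u ∘ σ.1) := rfl
    rw [h, map_smul, norm_smul, Real.norm_eq_abs]
  N_subst := by
    intro τ hτ u
    have hb : ∀ u : (I → ℤˣ) → ℝ, BddAbove (Set.range
      fun σ : {σ : (Fin n → ℤˣ) → (I → ℤˣ) // IsSubst σ} => ‖J (u ∘ σ.1)‖) :=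
      fun u => (Set.finite_range _).bddAbove
    haveI : Nonempty {σ : (Fin n → ℤˣ) → (I → ℤˣ) // IsSubst σ} := ⟨⟨rd I ι, isSubst_rd ι⟩⟩
    refine ciSup_le fun σ => ?_
    exact le_ciSup (hb u) ⟨τ ∘ σ.1, hτ.comp σ.2⟩
  J_le := by
    intro u
    have hb : ∀ u : (I → ℤˣ) → ℝ, BddAbove (Set.range
      fun σ : {σ : (Fin n → ℤˣ) → (I → ℤˣ) // IsSubst σ} => ‖J (u ∘ σ.1)‖) :=
      fun u => (Set.finite_range _).bddAbove
    exact le_ciSup (hb u) ⟨rd I ι, isSubst_rd ι⟩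
  N_le := by
    intro u
    haveI : Nonempty {σ : (Fin n → ℤˣ) → (I → ℤˣ) // IsSubst σ} := ⟨⟨rd I ι, isSubst_rd ι⟩⟩
    refine ciSup_le fun σ => ?_
    have h := hσ (xt ι ∘ σ.1) ((isSubst_xt hι).comp σ.2) (u ∘ rd I ι)
    have h2 : (u ∘ rd I ι) ∘ (xt ι ∘ σ.1) = u ∘ σ.1 := by
      ext x
      simp [rd_xt hι]
    rwa [h2] at h
  R_le := by
    intro e
    haveI : Nonempty {σ : (Fin n → ℤˣ) → (I → ℤˣ) // IsSubst σ} := ⟨⟨rd I ι, isSubst_rd ι⟩⟩
    have hD : 1 ≤ D := one_le_of_copy hRJ hσ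
    refine ciSup_le fun σ => ?_
    have h := hσ (xt ι ∘ σ.1) ((isSubst_xt hι).comp σ.2) (R e)
    have h2 : (R e) ∘ (xt ι ∘ σ.1) = (R e ∘ xt ι) ∘ σ.1 := rfl
    rw [h2] at h
    calc ‖J ((R e ∘ xt ι) ∘ σ.1)‖ ≤ D * ‖J (R e)‖ := h
      _ ≤ D * (D' * ‖e‖) := by
          have := hJR e
          gcongr
      _ = D * D' * ‖e‖ := by ring

end

theorem card_Ix_pos (m k l : ℕ) : Finite (Ix m k l) := inferInstance

/-- Finite cotype of the dual forces `ℓ_∞^M`. -/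
theorem linfty_of_copy (r C D D' δ : ℝ) (hr : 0 < r) (hδ : 0 < δ) (M : ℕ) :
    ∃ n₀ : ℕ, ∀ n, n₀ ≤ n → ∀ (X : Type*) [NormedAddCommGroup X] [NormedSpace ℝ X],
      HasCube n D D' X → CotypeWith r C (X →L[ℝ] ℝ) → HasLinfty M ((1 + δ) * D) X := by
  -- parameters
  obtain ⟨m, hm3, hm⟩ : ∃ m : ℕ, 3 ≤ m ∧ 2 * (C * (D * D')) ≤ (m : ℝ) ^ (1 / r) := by
    have h := (tendsto_rpow_atTop (one_div_pos.2 hr)).comp (tendsto_natCast_atTop_atTop (R := ℝ))
    obtain ⟨m, hm, hm3⟩ := ((h.eventually_ge_atTop (2 * (C * (D * D')))).and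
      (Filter.eventually_ge_atTop 3)).exists
    exact ⟨m, hm3, hm⟩
  obtain ⟨k, hk0, hk⟩ : ∃ k : ℕ, 0 < k ∧ (2 : ℝ) ^ m < (1 + δ) ^ (2 * k) := by
    have h := tendsto_pow_atTop_atTop_of_one_lt (r := 1 + δ) (by linarith)
    obtain ⟨j, hj, hj1⟩ := ((h.eventually_gt_atTop ((2 : ℝ) ^ m)).and
      (Filter.eventually_ge_atTop 1)).exists
    refine ⟨j, hj1, hj.trans_le ?_⟩
    exact pow_le_pow_right₀ (by linarith) (by omega)
  refine ⟨Fintype.card (Ix m k M), fun n hn X _ _ hcopy hcot => ?_⟩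
  obtain ⟨J, R, hRJ, hJR, hσ⟩ := hcopy
  obtain ⟨ι⟩ : Nonempty (Ix m k M ↪ Fin n) :=
    Function.Embedding.nonempty_of_card_le (by rwa [Fintype.card_fin])
  let S := Sys.ofCopy ι.injective J R hRJ hJR hσ
  obtain ⟨T, b, hb, hlt⟩ := S.exists_flat hr hcot hm3 hk0 hm (by linarith : (0:ℝ) ≤ 1 + δ) hk
  obtain ⟨x, hx⟩ := S.linfty_of_flat hb hlt.le
  -- restrict to `M` vectors
  have hcard : Fintype.card (Fin M) ≤ Fintype.card (Ad M) := by
    rw [Fintype.card_fun, ZMod.card, Fintype.card_fin]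
    exact Nat.lt_two_pow_self.le
  obtain ⟨e⟩ : Nonempty (Fin M ↪ Ad M) := Function.Embedding.nonempty_of_card_le hcard
  refine ⟨fun i => x (e i), fun a => ?_⟩
  have h1 := hx (Function.extend e a 0)
  have h2 : ∑ β, (Function.extend e a 0 : Ad M → ℝ) β • x β = ∑ i, a i • x (e i) := by
    symm
    refine Finset.sum_of_injOn e e.injective.injOn (fun _ _ => by simp) ?_ ?_
    · intro β _ hβ
      have : ¬ ∃ i, e i = β := fun ⟨i, hi⟩ => hβ ⟨i, by simp, hi⟩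
      rw [Function.extend_apply' _ _ _ this]; simp
    · intro i _
      rw [e.injective.extend_apply]
  have h3 : ‖(Function.extend e a 0 : Ad M → ℝ)‖ = ‖a‖ := by
    apply le_antisymm
    · rw [pi_norm_le_iff_of_nonneg (norm_nonneg _)]
      intro β
      by_cases h : ∃ i, e i = β
      · obtain ⟨i, rfl⟩ := h
        rw [e.injective.extend_apply]
        exact norm_le_pi_norm a i
      · rw [Function.extend_apply' _ _ _ h]; simp
    · rw [pi_norm_le_iff_of_nonneg (norm_nonneg _)]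
      intro i
      have := norm_le_pi_norm (Function.extend e a 0 : Ad M → ℝ) (e i)
      rwa [e.injective.extend_apply] at this
  rwa [h2, h3] at h1

/-- `ℓ_∞^M` has large cotype constants. -/
theorem le_of_linfty {M : ℕ} {K q C : ℝ} (hq : 0 < q) {X : Type*} [NormedAddCommGroup X]
    [NormedSpace ℝ X] (h : HasLinfty M K X) (hc : CotypeWith q C X) (hC : 0 ≤ C) (hM : 0 < M) :
    (M : ℝ) ^ (1 / q) ≤ C * K := by
  obtain ⟨x, hx⟩ := h
  have h1 := hc M x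
  haveI : Nonempty (Fin M) := ⟨⟨0, hM⟩⟩
  have h2 : ∀ i, 1 ≤ ‖x i‖ := by
    intro i
    have h := (hx (Pi.single i 1)).1
    have e : ∑ j, (Pi.single i (1 : ℝ) : Fin M → ℝ) j • x j = x i := by
      rw [Finset.sum_eq_single i]
      · simp
      · intro j _ hj
        simp [Pi.single_eq_of_ne hj]
      · intro h; exact absurd (Finset.mem_univ _) h
    rw [e] at h
    refine le_trans ?_ h
    have := norm_le_pi_norm (Pi.single i (1 : ℝ) : Fin M → ℝ) i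
    simpa using this
  have h3 : ∀ ε : Fin M → ℤˣ, ‖∑ i, sg (ε i) • x i‖ ≤ K := by
    intro ε
    have h := (hx fun i => sg (ε i)).2
    have e : ‖(fun i => sg (ε i) : Fin M → ℝ)‖ ≤ 1 := by
      rw [pi_norm_le_iff_of_nonneg zero_le_one]
      intro i
      rw [Real.norm_eq_abs, abs_sg]
    have e2 : ‖(fun i => sg (ε i) : Fin M → ℝ)‖ = 1 := by
      apply le_antisymm e
      have := norm_le_pi_norm (fun i => sg (ε i) : Fin M → ℝ) ⟨0, hM⟩
      rwa [Real.norm_eq_abs, abs_sg] at this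
    rwa [e2, mul_one] at h
  have hK : 0 ≤ K := (norm_nonneg _).trans (h3 1)
  have h4 : (avg fun ε : Fin M → ℤˣ => ‖∑ i, sg (ε i) • x i‖ ^ 2) ^ (1 / 2 : ℝ) ≤ K := by
    have h5 : (avg fun ε : Fin M → ℤˣ => ‖∑ i, sg (ε i) • x i‖ ^ 2) ≤ K ^ 2 := by
      refine avg_le_const fun ε => ?_
      have := h3 ε
      gcongr
    have h0 : 0 ≤ (avg fun ε : Fin M → ℤˣ => ‖∑ i, sg (ε i) • x i‖ ^ 2) :=
      avg_nonneg fun ε => by positivity
    calc _ ≤ (K ^ 2) ^ (1 / 2 : ℝ) := Real.rpow_le_rpow h0 h5 (by norm_num)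
      _ = K := by rw [← Real.sqrt_eq_rpow, Real.sqrt_sq hK]
  calc (M : ℝ) ^ (1 / q) ≤ (∑ i, ‖x i‖ ^ q) ^ (1 / q) := by
        refine Real.rpow_le_rpow (by positivity) ?_ (by positivity)
        calc (M : ℝ) = ∑ i : Fin M, (1 : ℝ) := by simp
          _ ≤ ∑ i, ‖x i‖ ^ q := Finset.sum_le_sum fun i _ => Real.one_le_rpow (h2 i) hq.le
    _ ≤ _ := h1
    _ ≤ C * K := by gcongr

/-- a nonzero space has positive cotype constants. -/
theorem cotype_nonneg {q C : ℝ} {X : Type*} [NormedAddCommGroup X]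
    [NormedSpace ℝ X] (hc : CotypeWith q C X) {x : X} (hx : x ≠ 0) : 0 ≤ C := by
  have h := hc 1 (fun _ => x)
  have hxp : 0 < ‖x‖ := norm_pos_iff.2 hx
  by_contra hC
  push Not at hC
  have h0 : 0 ≤ (avg fun ε : Fin 1 → ℤˣ => ‖∑ i, sg (ε i) • x‖ ^ 2) ^ (1 / 2 : ℝ) :=
    Real.rpow_nonneg (avg_nonneg fun ε => by positivity) _
  have h1 : 0 < (∑ i : Fin 1, ‖x‖ ^ q) ^ (1 / q) := by
    have : 0 < ∑ i : Fin 1, ‖x‖ ^ q := by
      simp; positivity
    positivity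
  have h2 := mul_nonpos_of_nonpos_of_nonneg hC.le h0
  linarith

/-- No space with both cotypes contains complemented copies for large `n`. -/
theorem not_both (q r C D D' : ℝ) (hq : 0 < q) (hr : 0 < r) :
    ∃ n₀ : ℕ, ∀ n, n₀ ≤ n → ∀ (X : Type*) [NormedAddCommGroup X] [NormedSpace ℝ X],
      HasCube n D D' X → ¬ (CotypeWith q C X ∧ CotypeWith r C (X →L[ℝ] ℝ)) := by
  obtain ⟨M, hM0, hM⟩ : ∃ M : ℕ, 0 < M ∧ C * ((1 + 1) * D) < (M : ℝ) ^ (1 / q) := by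
    have h := (tendsto_rpow_atTop (one_div_pos.2 hq)).comp (tendsto_natCast_atTop_atTop (R := ℝ))
    obtain ⟨m, hm, hm3⟩ := ((h.eventually_gt_atTop (C * ((1 + 1) * D))).and
      (Filter.eventually_ge_atTop 1)).exists
    exact ⟨m, hm3, hm⟩
  obtain ⟨n₀, h⟩ := linfty_of_copy r C D D' 1 hr one_pos M
  refine ⟨n₀, fun n hn X _ _ hcopy ⟨h1, h2⟩ => ?_⟩
  have hx : ∃ x : X, x ≠ 0 := by
    obtain ⟨J, R, hRJ, -, -⟩ := hcopy
    refine ⟨J (fun _ => 1), fun h => ?_⟩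
    have h3 := hRJ (fun _ => 1)
    rw [h, map_zero] at h3
    have := congrFun h3 1
    simp at this
  obtain ⟨x, hx⟩ := hx
  have h3 := le_of_linfty hq (h n hn X hcopy h2) h1 (cotype_nonneg h1 hx) hM0
  linarith

end Vale.Agent.P111.H698
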