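import Vale.Agent.P111.R2.H698.Defs

/-! Signed substitutions on the cube. -/

namespace Vale.Agent.P111.H698

/-- `σ` is a signed substitution: every output coordinate is an input coordinate times a fixed
sign, or a constant sign. -/
def IsSubst {I J : Type*} (σ : (I → ℤˣ) → (J → ℤˣ)) : Prop :=
  ∀ j, (∃ (i : I) (s : ℤˣ), ∀ x, σ x j = s * x i) ∨ (∃ s : ℤˣ, ∀ x, σ x j = s)

/-- complemented copies of functions on the cube. -/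
def HasCube (n : ℕ) (D D' : ℝ) (X : Type*) [NormedAddCommGroup X] [NormedSpace ℝ X] : Prop :=
  ∃ (J : ((Fin n → ℤˣ) → ℝ) →ₗ[ℝ] X) (R : X →ₗ[ℝ] ((Fin n → ℤˣ) → ℝ)),
    (∀ u, R (J u) = u) ∧ (∀ x, ‖J (R x)‖ ≤ D' * ‖x‖) ∧
    ∀ σ : (Fin n → ℤˣ) → (Fin n → ℤˣ), IsSubst σ → ∀ u, ‖J (u ∘ σ)‖ ≤ D * ‖J u‖

end Vale.Agent.P111.H698
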