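import Vale.Agent.P111.MathlibUsed
import Vale.Agent.P111.QL.Avg
import Vale.Agent.P111.R2.H698.Subst

set_option linter.all false

/-! Substitution invariant norms: the abstract system and the base step. -/

namespace Vale.Agent.P111.H698

open Finset

section Subst

variable {I J K : Type*}

theorem isSubst_id : IsSubst (id : (I → ℤˣ) → (I → ℤˣ)) :=
  fun j => Or.inl ⟨j, 1, fun x => by simp⟩

theorem IsSubst.comp {σ : (J → ℤˣ) → (K → ℤˣ)} {τ : (I → ℤˣ) → (J → ℤˣ)}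
    (hσ : IsSubst σ) (hτ : IsSubst τ) : IsSubst (σ ∘ τ) := by
  intro k
  rcases hσ k with ⟨j, s, h⟩ | ⟨s, h⟩
  · rcases hτ j with ⟨i, t, h'⟩ | ⟨t, h'⟩
    · exact Or.inl ⟨i, s * t, fun x => by simp [h, h', mul_assoc]⟩
    · exact Or.inr ⟨s * t, fun x => by simp [h, h']⟩
  · exact Or.inr ⟨s, fun x => by simp [h]⟩

theorem isSubst_const (c : J → ℤˣ) : IsSubst (fun _ : I → ℤˣ => c) :=
  fun j => Or.inr ⟨c j, fun _ => rfl⟩

end Subst

/-- A complemented copy of the functions on the cube `{±1}^I` in `E`, together with an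
equivalent substitution invariant seminorm. -/
structure Sys (I E : Type*) [NormedAddCommGroup E] [NormedSpace ℝ E] (D B : ℝ) where
  J : ((I → ℤˣ) → ℝ) →ₗ[ℝ] E
  R : E →ₗ[ℝ] ((I → ℤˣ) → ℝ)
  N : ((I → ℤˣ) → ℝ) → ℝ
  RJ : ∀ u, R (J u) = u
  N_add : ∀ u v, N (u + v) ≤ N u + N v
  N_smul : ∀ (c : ℝ) u, N (c • u) = |c| * N u
  N_subst : ∀ σ : (I → ℤˣ) → (I → ℤˣ), IsSubst σ → ∀ u, N (u ∘ σ) ≤ N u
  J_le : ∀ u, ‖J u‖ ≤ N u
  N_le : ∀ u, N u ≤ D * ‖J u‖
  R_le : ∀ e, N (R e) ≤ B * ‖e‖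

namespace Sys

variable {I E : Type*} [NormedAddCommGroup E] [NormedSpace ℝ E] {D B : ℝ} (S : Sys I E D B)

theorem N_nonneg (u : (I → ℤˣ) → ℝ) : 0 ≤ S.N u := (norm_nonneg _).trans (S.J_le u)

theorem N_zero : S.N 0 = 0 := by
  have := S.N_smul 0 0
  simpa using this

theorem N_neg (u : (I → ℤˣ) → ℝ) : S.N (-u) = S.N u := by
  have := S.N_smul (-1) u
  simpa using this

theorem N_sub (u v : (I → ℤˣ) → ℝ) : S.N (u - v) ≤ S.N u + S.N v := by
  have := S.N_add u (-v)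
  rwa [S.N_neg, ← sub_eq_add_neg] at this

theorem N_sum {κ : Type*} (s : Finset κ) (u : κ → (I → ℤˣ) → ℝ) :
    S.N (∑ k ∈ s, u k) ≤ ∑ k ∈ s, S.N (u k) := by
  classical
  induction s using Finset.induction_on with
  | empty => simp [S.N_zero]
  | insert a s ha ih =>
    rw [Finset.sum_insert ha, Finset.sum_insert ha]
    exact (S.N_add _ _).trans (by linarith)

theorem N_pos {u : (I → ℤˣ) → ℝ} (hu : u ≠ 0) : 0 < S.N u := by
  have h : S.J u ≠ 0 := fun h => hu (by rw [← S.RJ u, h, map_zero])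
  exact (norm_pos_iff.2 h).trans_le (S.J_le u)

/-- averages of substitutions. -/
theorem N_avg {κ : Type*} [Fintype κ] [Nonempty κ] (u : κ → (I → ℤˣ) → ℝ) (c : ℝ)
    (h : ∀ k, S.N (u k) ≤ c) : S.N (avg u) ≤ c := by
  have hc : (0 : ℝ) < Fintype.card κ := by exact_mod_cast Fintype.card_pos
  unfold avg
  rw [S.N_smul, abs_of_pos (inv_pos.2 hc)]
  calc (Fintype.card κ : ℝ)⁻¹ * S.N (∑ k, u k)
      ≤ (Fintype.card κ : ℝ)⁻¹ * ∑ k, S.N (u k) := by
        gcongr; exact S.N_sum _ _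
    _ ≤ (Fintype.card κ : ℝ)⁻¹ * ∑ k : κ, c := by
        gcongr with k; exact h k
    _ = c := by
        rw [Finset.sum_const, nsmul_eq_mul, Finset.card_univ]
        field_simp

end Sys

end Vale.Agent.P111.H698
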