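import Vale.Agent.P111.MathlibUsed
import Vale.Agent.P111.R2.H698.Sys

set_option linter.all false

/-! The multiplexer block. -/

namespace Vale.Agent.P111.H698.Mux

open Finset

/-- From `ZMod 2` to signs. -/
def eps (z : ZMod 2) : ℤˣ := if z = 0 then 1 else -1

theorem eps_add (a b : ZMod 2) : eps (a + b) = eps a * eps b := by
  revert a b; decide

theorem eps_zero : eps 0 = 1 := rfl

theorem eps_one : eps 1 = -1 := rfl

variable {l : ℕ}

/-- addresses -/
abbrev Ad (l : ℕ) : Type := Fin l → ZMod 2

/-- points: an address and a table. -/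
abbrev Pt (l : ℕ) : Type := Ad l × (Ad l → ZMod 2)

theorem ad_add_self (y : Ad l) : y + y = 0 := by
  ext i; simp [CharTwo.add_self_eq_zero]

theorem pt_add_self (v : Pt l) : v + v = 0 := by
  ext i <;> simp [CharTwo.add_self_eq_zero]

/-- the multiplexer. -/
def mx (v : Pt l) : ZMod 2 := v.2 v.1

/-- a functional not vanishing at a given nonzero vector. -/
noncomputable def lam (u x : Ad l) : ZMod 2 :=
  open Classical in if h : ∃ i, u i ≠ 0 then x h.choose else 0

theorem lam_add (u x y : Ad l) : lam u (x + y) = lam u x + lam u y := by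
  unfold lam
  split_ifs <;> simp

theorem lam_self {u : Ad l} (hu : u ≠ 0) : lam u u = 1 := by
  have h : ∃ i, u i ≠ 0 := Function.ne_iff.1 hu
  unfold lam
  rw [dif_pos h]
  have := h.choose_spec
  revert this
  generalize u h.choose = z
  revert z; decide

/-- the affine homogeneity of the multiplexer. -/
theorem mx_homog (v v' : Pt l) : ∃ (A : Pt l ≃+ Pt l) (κ : ZMod 2), ∀ x,
    mx (v' + A x) = mx (v + x) + κ := by
  obtain ⟨y0, G0⟩ := v
  obtain ⟨y1, G1⟩ := v'
  let κ : ZMod 2 := G1 y1 + G0 y0
  let c : Ad l → ZMod 2 := fun u => G1 (y1 + u) + G0 (y0 + u) + κ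
  let f : Pt l →+ Pt l :=
    { toFun := fun x => (x.1, fun z => x.2 (z + (y0 + y1)) + c (z + y1) * lam (z + y1) x.1)
      map_zero' := by
        ext z
        · rfl
        · have : ∀ u : Ad l, lam u 0 = 0 := by
            intro u; unfold lam; split_ifs <;> rfl
          simp [this]
      map_add' := by
        intro x y
        ext z
        · rfl
        · simp only [Prod.fst_add, Prod.snd_add, Pi.add_apply, lam_add]
          ring }
  have hinj : Function.Injective f := by
    intro x x' hx
    have h1 : (f x).1 = (f x').1 := congrArg Prod.fst hx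
    have h2 : (f x).2 = (f x').2 := congrArg Prod.snd hx
    change x.1 = x'.1 at h1
    refine Prod.ext h1 (funext fun z => ?_)
    have h3 := congrFun h2 (z + (y0 + y1))
    simp only [f, AddMonoidHom.coe_mk, ZeroHom.coe_mk] at h3
    rw [h1] at h3
    have h4 := add_right_cancel h3
    rwa [add_assoc, ad_add_self, add_zero] at h4
  have hbij : Function.Bijective f := Finite.injective_iff_bijective.1 hinj
  refine ⟨AddEquiv.ofBijective f hbij, κ, fun x => ?_⟩
  rw [AddEquiv.ofBijective_apply]
  have h2 : (2 : ZMod 2) = 0 := rfl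
  have e1 : mx ((y1, G1) + f x) = G1 (y1 + x.1) + (x.2 (y0 + x.1) + c x.1 * lam x.1 x.1) := by
    have a1 : y1 + x.1 + (y0 + y1) = y0 + x.1 := by
      have : y1 + x.1 + (y0 + y1) = (y1 + y1) + (y0 + x.1) := by abel
      rw [this, ad_add_self, zero_add]
    have a2 : y1 + x.1 + y1 = x.1 := by
      have : y1 + x.1 + y1 = (y1 + y1) + x.1 := by abel
      rw [this, ad_add_self, zero_add]
    simp only [mx, f, AddMonoidHom.coe_mk, ZeroHom.coe_mk, Prod.fst_add, Prod.snd_add,
      Pi.add_apply, a1, a2]
  have e2 : mx ((y0, G0) + x) = G0 (y0 + x.1) + x.2 (y0 + x.1) := rfl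
  rw [e1, e2]
  by_cases hx : x.1 = 0
  · have : c x.1 = 0 := by
      simp only [c, κ, hx, add_zero]
      linear_combination (G1 y1 + G0 y0) * h2
    rw [this, hx]
    simp only [add_zero, κ]
    linear_combination (-G0 y0) * h2
  · rw [lam_self hx]
    simp only [c]
    linear_combination (G1 (y1 + x.1)) * h2

/-- the point of a block. -/
def pp (a : Pt l → ℤˣ) : Pt l := ∑ v, if a v = -1 then v else 0

theorem pp_mul (a b : Pt l → ℤˣ) : pp (a * b) = pp a + pp b := by
  unfold pp
  rw [← Finset.sum_add_distrib]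
  refine Finset.sum_congr rfl fun v _ => ?_
  rw [Pi.mul_apply]
  rcases Int.units_eq_one_or (a v) with h1 | h1 <;> rcases Int.units_eq_one_or (b v) with h2 | h2 <;>
    simp [h1, h2, pt_add_self]

theorem pp_one : pp (1 : Pt l → ℤˣ) = 0 := by
  unfold pp
  apply Finset.sum_eq_zero
  intro v _
  simp

theorem pp_single (v : Pt l) (s : ℤˣ) : pp (Pi.mulSingle v s) = if s = -1 then v else 0 := by
  unfold pp
  rw [Finset.sum_eq_single v]
  · simp
  · intro w _ hw
    simp [Pi.mulSingle_eq_of_ne hw]
  · intro h; exact absurd (Finset.mem_univ _) h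

theorem pp_comp (A : Pt l ≃+ Pt l) (a : Pt l → ℤˣ) : pp (fun v => a (A.symm v)) = A (pp a) := by
  unfold pp
  rw [map_sum, ← Equiv.sum_comp A.toEquiv]
  refine Finset.sum_congr rfl fun v _ => ?_
  simp only [AddEquiv.toEquiv_eq_coe, AddEquiv.coe_toEquiv, AddEquiv.symm_apply_apply]
  split_ifs
  · rfl
  · simp

/-- the block function. -/
def phi (a : Pt l → ℤˣ) : ℤˣ := eps (mx (pp a))

/-- homogeneity of the block function. -/
theorem phi_homog (a a' : Pt l → ℤˣ) : ∃ (h : (Pt l → ℤˣ) → (Pt l → ℤˣ)) (χ : ℤˣ),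
    IsSubst h ∧ Function.Injective h ∧ (∀ x, phi (h x) = χ * phi x) ∧ h a = a' := by
  obtain ⟨A, κ, hA⟩ := mx_homog (pp a) (pp a')
  let t : Pt l → ℤˣ := fun v => a' v * a (A.symm v)
  let h : (Pt l → ℤˣ) → (Pt l → ℤˣ) := fun x v => t v * x (A.symm v)
  have hsq : ∀ s : ℤˣ, s * s = 1 := fun s => Int.units_mul_self s
  refine ⟨h, eps κ, fun v => Or.inl ⟨A.symm v, t v, fun x => rfl⟩, ?_, ?_, ?_⟩
  · intro x x' hx
    funext v
    have := congrFun hx (A v)
    simp only [h, AddEquiv.symm_apply_apply] at this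
    exact mul_left_cancel this
  · intro x
    have h1 : h x = (a' * (fun v => a (A.symm v))) * (fun v => x (A.symm v)) := rfl
    have h2 : pp (h x) = pp a' + A (pp a + pp x) := by
      rw [h1, pp_mul, pp_mul, pp_comp, pp_comp, map_add, add_assoc]
    have h3 : pp a + (pp a + pp x) = pp x := by
      rw [← add_assoc, pt_add_self, zero_add]
    unfold phi
    rw [h2, hA, h3, eps_add, mul_comm]
  · funext v
    simp only [h, t]
    rw [mul_assoc, hsq, mul_one]

/-- the flipping pattern. -/
def fl (s : ℤˣ) : Pt l → ℤˣ := Pi.mulSingle ((0, fun _ => 1) : Pt l) s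

theorem phi_fl_mul (s : ℤˣ) (a : Pt l → ℤˣ) : phi (fl s * a) = s * phi a := by
  unfold phi
  rw [pp_mul, fl, pp_single]
  rcases Int.units_eq_one_or s with h | h
  · subst h; simp
  · subst h
    rw [if_pos rfl]
    have : mx (((0, fun _ => 1) : Pt l) + pp a) = 1 + mx (pp a) := by
      simp [mx]
    rw [this, eps_add, eps_one]

theorem phi_one : phi (1 : Pt l → ℤˣ) = 1 := by
  unfold phi
  rw [pp_one]; rfl

theorem phi_fl (s : ℤˣ) : phi (fl s : Pt l → ℤˣ) = s := by
  have := phi_fl_mul (l := l) s 1
  rwa [mul_one, phi_one, mul_one] at this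

/-- the address variables. -/
def ev (i : Fin l) : Pt l := (Pi.single i 1, 0)

theorem ev_inj : Function.Injective (ev : Fin l → Pt l) := by
  intro i j h
  have h1 : (Pi.single i (1 : ZMod 2) : Ad l) = Pi.single j 1 := congrArg Prod.fst h
  by_contra hij
  have h2 := congrFun h1 i
  rw [Pi.single_eq_same, Pi.single_eq_of_ne hij] at h2
  exact one_ne_zero h2

/-- the address read from the variables. -/
def addr (a : Pt l → ℤˣ) : Ad l := fun i => if a (ev i) = -1 then 1 else 0

open Classical in
/-- the substitution producing the table `θ`. -/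
noncomputable def mu (θ : Ad l → ZMod 2) (a : Pt l → ℤˣ) : Pt l → ℤˣ := fun v =>
  (if ∃ i, v = ev i then a v else 1) * (Pi.mulSingle ((0, θ) : Pt l) (-1) : Pt l → ℤˣ) v

theorem isSubst_mu (θ : Ad l → ZMod 2) : IsSubst (mu θ) := by
  classical
  intro v
  by_cases h : ∃ i, v = ev i
  · refine Or.inl ⟨v, (Pi.mulSingle ((0, θ) : Pt l) (-1) : Pt l → ℤˣ) v, fun a => ?_⟩
    simp only [mu, if_pos h]
    rw [mul_comm]
  · refine Or.inr ⟨(Pi.mulSingle ((0, θ) : Pt l) (-1) : Pt l → ℤˣ) v, fun a => ?_⟩
    simp only [mu, if_neg h, one_mul]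

theorem pp_mu (θ : Ad l → ZMod 2) (a : Pt l → ℤˣ) : pp (mu θ a) = (addr a, θ) := by
  classical
  have h1 : mu θ a = (fun v => if ∃ i, v = ev i then a v else 1) *
      (Pi.mulSingle ((0, θ) : Pt l) (-1) : Pt l → ℤˣ) := rfl
  rw [h1, pp_mul, pp_single, if_pos rfl]
  have h2 : pp (fun v => if ∃ i, v = ev i then a v else 1) = (addr a, 0) := by
    unfold pp
    have h3 : ∑ i : Fin l, (if a (ev i) = -1 then ev i else 0)
        = ∑ v : Pt l, if (if ∃ i, v = ev i then a v else 1) = -1 then v else 0 := by
      refine Finset.sum_of_injOn ev (ev_inj.injOn) (fun _ _ => by simp) ?_ ?_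
      · intro v _ hv
        have : ¬ ∃ i, v = ev i := fun ⟨i, hi⟩ => hv ⟨i, by simp, hi.symm⟩
        simp [this]
      · intro i _
        have : ∃ j, ev i = ev j := ⟨i, rfl⟩
        simp [this]
    rw [← h3]
    refine Prod.ext ?_ ?_
    · rw [Prod.fst_sum]
      funext j
      rw [Finset.sum_apply]
      have h4 : ∀ i : Fin l, ((if a (ev i) = -1 then ev i else (0 : Pt l)).1 : Ad l) j
          = if i = j then addr a j else 0 := by
        intro i
        by_cases hij : i = j
        · subst hij
          by_cases h5 : a (ev i) = -1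
          · rw [if_pos h5, if_pos rfl]
            simp only [addr, if_pos h5]
            simp [ev]
          · simp [h5, addr]
        · by_cases h5 : a (ev i) = -1
          · rw [if_pos h5, if_neg hij]
            simp [ev, Pi.single_eq_of_ne (Ne.symm hij)]
          · simp [h5, hij]
      simp only [h4]
      simp
    · rw [Prod.snd_sum]
      apply Finset.sum_eq_zero
      intro i _
      split_ifs <;> rfl
  rw [h2]
  simp

theorem phi_mu (θ : Ad l → ZMod 2) (a : Pt l → ℤˣ) : phi (mu θ a) = eps (θ (addr a)) := by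
  unfold phi
  rw [pp_mu]; rfl

open Classical in
/-- the constant block with a given address. -/
noncomputable def cst (β : Ad l) : Pt l → ℤˣ := fun v => if ∃ i, v = ev i ∧ β i = 1 then -1 else 1

theorem addr_cst (β : Ad l) : addr (cst β) = β := by
  classical
  funext i
  by_cases h : β i = 1
  · have h1 : ∃ j, ev i = ev j ∧ β j = 1 := ⟨i, rfl, h⟩
    simp only [addr, cst, if_pos h1, if_true, h]
  · have h1 : ¬ ∃ j, ev i = ev j ∧ β j = 1 := by
      rintro ⟨j, hj, hb⟩
      rw [ev_inj hj] at h
      exact h hb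
    have h2 : β i = 0 := by
      revert h
      generalize β i = z
      revert z; decide
    have h3 : ¬ ((1 : ℤˣ) = -1) := by decide
    simp only [addr, cst, if_neg h1, if_neg h3, h2]

end Vale.Agent.P111.H698.Mux
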