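import Vale.Agent.P111.R2.H698.Base
import Vale.Agent.P111.R2.H698.Comp
import Vale.Agent.P111.R2.H698.Mux

set_option linter.all false

/-! The core argument: no substitution invariant system with both cotypes. -/

namespace Vale.Agent.P111.H698

open Finset QL Mux

section Blocks

variable {m k l : ℕ}

/-- the index set of the variables: blocks and variables in a block. -/
abbrev Ix (m k l : ℕ) : Type := (Fin m × Fin k) × Pt l

/-- the block functions. -/
def Fb (b : Fin m × Fin k) (x : Ix m k l → ℤˣ) : ℤˣ := phi fun v => x (b, v)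

/-- products of block functions. -/
noncomputable def FT (T : Finset (Fin m × Fin k)) (x : Ix m k l → ℤˣ) : ℝ := ∏ b ∈ T, sg (Fb b x)

/-- the superblock map. -/
def Fm (x : Ix m k l → ℤˣ) (i : Fin m) : ℤˣ := ∏ j, Fb (i, j) x

theorem sg_prod' {ι : Type*} (s : Finset ι) (f : ι → ℤˣ) : sg (∏ i ∈ s, f i) = ∏ i ∈ s, sg (f i) := by
  classical
  induction s using Finset.induction_on with
  | empty => simp [sg]
  | insert a s ha ih => rw [Finset.prod_insert ha, Finset.prod_insert ha, sg_mul, ih]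

theorem chi_Fm (T : Finset (Fin m)) : (chi T) ∘ (Fm : (Ix m k l → ℤˣ) → _) = FT (T ×ˢ univ) := by
  ext x
  simp only [Function.comp, chi, Fm, FT, sg_prod', Finset.prod_product]

theorem prod_ite_fl (j0 : Fin k) (s : ℤˣ) (a : Fin k → Pt l → ℤˣ) :
    ∏ j, phi ((if j = j0 then fl s else 1) * a j) = s * ∏ j, phi (a j) := by
  have h : ∀ j, phi ((if j = j0 then fl s else 1) * a j) = (if j = j0 then s else 1) * phi (a j) := by
    intro j
    split_ifs
    · exact phi_fl_mul s (a j)
    · rw [one_mul, one_mul]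
  simp only [h, Finset.prod_mul_distrib]
  simp

theorem Fm_lift (j0 : Fin k) (τ : (Fin m → ℤˣ) → (Fin m → ℤˣ)) (hτ : IsSubst τ) :
    ∃ τ' : (Ix m k l → ℤˣ) → (Ix m k l → ℤˣ), IsSubst τ' ∧ ∀ x, Fm (τ' x) = τ (Fm x) := by
  have key : ∀ i, ∃ g : (Ix m k l → ℤˣ) → (Fin k → Pt l → ℤˣ),
      (∀ j v, (∃ k s, ∀ x, g x j v = s * x k) ∨ (∃ s, ∀ x, g x j v = s)) ∧
      ∀ x, ∏ j, phi (g x j) = τ (Fm x) i := by
    intro i
    rcases hτ i with ⟨i', s, h⟩ | ⟨s, h⟩
    · refine ⟨fun x j => (if j = j0 then fl s else 1) * fun v => x ((i', j), v), ?_, ?_⟩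
      · intro j v
        exact Or.inl ⟨((i', j), v), (if j = j0 then fl s else (1 : Pt l → ℤˣ)) v, fun x => rfl⟩
      · intro x
        rw [prod_ite_fl, h]
        rfl
    · refine ⟨fun x j => (if j = j0 then fl s else 1) * 1, ?_, ?_⟩
      · intro j v
        exact Or.inr ⟨_, fun x => rfl⟩
      · intro x
        rw [prod_ite_fl j0 s (fun _ => 1), h]
        simp [phi_one]
  choose g hg1 hg2 using key
  exact ⟨fun x k => g k.1.1 x k.1.2 k.2, fun k => hg1 k.1.1 k.1.2 k.2,
    fun x => funext fun i => hg2 i x⟩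

theorem Fm_trans (a b : Ix m k l → ℤˣ) (hab : Fm a = Fm b) :
    ∃ h : (Ix m k l → ℤˣ) → (Ix m k l → ℤˣ),
      IsSubst h ∧ Function.Injective h ∧ (∀ x, Fm (h x) = Fm x) ∧ h a = b := by
  have key : ∀ β : Fin m × Fin k, ∃ (h : (Pt l → ℤˣ) → (Pt l → ℤˣ)) (χ : ℤˣ),
      IsSubst h ∧ Function.Injective h ∧ (∀ x, phi (h x) = χ * phi x) ∧
      h (fun v => a (β, v)) = fun v => b (β, v) := fun β => phi_homog _ _
  choose h χ h1 h2 h3 h4 using key
  have hF : ∀ x i, Fm (fun k : Ix m k l => h k.1 (fun v => x (k.1, v)) k.2) i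
      = (∏ j, χ (i, j)) * Fm x i := by
    intro x i
    simp only [Fm, Fb]
    rw [← Finset.prod_mul_distrib]
    exact Finset.prod_congr rfl fun j _ => h3 (i, j) _
  have hval : (fun k : Ix m k l => h k.1 (fun v => a (k.1, v)) k.2) = b := by
    funext k
    rw [h4]
  refine ⟨fun x k => h k.1 (fun v => x (k.1, v)) k.2, ?_, ?_, ?_, hval⟩
  · intro k
    rcases h1 k.1 k.2 with ⟨v, s, hs⟩ | ⟨s, hs⟩
    · exact Or.inl ⟨(k.1, v), s, fun x => hs _⟩
    · exact Or.inr ⟨s, fun x => hs _⟩
  · intro x x' hx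
    funext k
    have h5 : h k.1 (fun v => x (k.1, v)) = h k.1 (fun v => x' (k.1, v)) := by
      funext v
      exact congrFun hx (k.1, v)
    exact congrFun (h2 k.1 h5) k.2
  · intro x
    funext i
    have h6 := hF a i
    rw [hval, ← hab] at h6
    have h7 : (∏ j, χ (i, j)) = 1 := by
      have : 1 * Fm a i = (∏ j, χ (i, j)) * Fm a i := by rw [one_mul]; exact h6
      exact (mul_right_cancel this).symm
    rw [hF, h7, one_mul]

theorem Fm_surj (j0 : Fin k) : Function.Surjective (Fm : (Ix m k l → ℤˣ) → (Fin m → ℤˣ)) := by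
  intro y
  refine ⟨fun k => if k.1.2 = j0 then fl (y k.1.1) k.2 else 1, funext fun i => ?_⟩
  have h := prod_ite_fl (l := l) j0 (y i) (fun _ => 1)
  simp only [phi_one, Finset.prod_const_one, mul_one] at h
  simp only [Fm, Fb]
  refine Eq.trans (Finset.prod_congr rfl fun j _ => ?_) h
  congr 1
  funext v
  split_ifs <;> rfl

end Blocks

namespace Sys

variable {m k l : ℕ} {E : Type*} [NormedAddCommGroup E] [NormedSpace ℝ E] {D B : ℝ}
  (S : Sys (Ix m k l) E D B)

/-- The consequence of the cotype of the dual. -/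
theorem dual_step (j0 : Fin k) {r C : ℝ} (hr : 0 < r) (hcot : CotypeWith r C (E →L[ℝ] ℝ)) {a b c : Fin m}
    (hab : a ≠ b) (hac : a ≠ c) (hbc : b ≠ c) (hm : 2 * (C * B) ≤ (m : ℝ) ^ (1 / r)) :
    S.N (FT ({a, b, c} ×ˢ univ)) ≤ 2 ^ m * S.N (FT ({a} ×ˢ univ)) := by
  have h := (S.comp Fm (Fm_lift j0) Fm_trans (Fm_surj j0)).base hr hcot hab hac hbc hm
  rwa [comp_N, comp_N, chi_Fm, chi_Fm] at h

theorem FT_ne_zero (T : Finset (Fin m × Fin k)) : (FT T : (Ix m k l → ℤˣ) → ℝ) ≠ 0 := by
  intro h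
  have h1 := congrFun h 1
  have h2 : ∀ b, Fb b (1 : Ix m k l → ℤˣ) = 1 := fun b => phi_one
  simp [FT, h2, sg] at h1

/-- replace a block. -/
def repl (b : Fin m × Fin k) (g : (Pt l → ℤˣ) → (Pt l → ℤˣ)) (x : Ix m k l → ℤˣ) : Ix m k l → ℤˣ :=
  fun k => if k.1 = b then g (fun v => x (b, v)) k.2 else x k

theorem isSubst_repl (b : Fin m × Fin k) {g : (Pt l → ℤˣ) → (Pt l → ℤˣ)} (hg : IsSubst g) :
    IsSubst (repl b g : (Ix m k l → ℤˣ) → _) := by
  intro k
  by_cases hk : k.1 = b
  · rcases hg k.2 with ⟨v, s, hs⟩ | ⟨s, hs⟩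
    · exact Or.inl ⟨(b, v), s, fun x => by simp only [repl, if_pos hk]; exact hs _⟩
    · exact Or.inr ⟨s, fun x => by simp only [repl, if_pos hk]; exact hs _⟩
  · exact Or.inl ⟨k, 1, fun x => by simp only [repl, if_neg hk, one_mul]⟩

theorem Fb_repl_self (b : Fin m × Fin k) (g : (Pt l → ℤˣ) → (Pt l → ℤˣ)) (x : Ix m k l → ℤˣ) :
    Fb b (repl b g x) = phi (g fun v => x (b, v)) := by
  simp only [Fb, repl, if_true]

theorem Fb_repl_of_ne {b b' : Fin m × Fin k} (h : b' ≠ b) (g : (Pt l → ℤˣ) → (Pt l → ℤˣ))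
    (x : Ix m k l → ℤˣ) : Fb b' (repl b g x) = Fb b' x := by
  simp only [Fb, repl, if_neg h]

theorem FT_repl {b : Fin m × Fin k} {T : Finset (Fin m × Fin k)} (h : b ∉ T)
    (g : (Pt l → ℤˣ) → (Pt l → ℤˣ)) (x : Ix m k l → ℤˣ) : FT T (repl b g x) = FT T x := by
  unfold FT
  refine Finset.prod_congr rfl fun b' hb' => ?_
  have hne : b' ≠ b := by rintro rfl; exact h hb'
  rw [Fb_repl_of_ne hne]

include S in
theorem one_le_D : 0 < D := by
  have h1 := S.N_le (FT ∅)
  have h2 := S.N_pos (FT_ne_zero ∅)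
  have h3 : 0 ≤ ‖S.J (FT ∅)‖ := norm_nonneg _
  by_contra hD
  push Not at hD
  nlinarith

/-- iterating a growth condition over the blocks. -/
theorem iter {t : ℝ} (ht : 0 ≤ t)
    (H : ∀ (T : Finset (Fin m × Fin k)) (b : Fin m × Fin k), b ∉ T →
      t * S.N (FT T) ≤ S.N (FT (insert b T))) (T U : Finset (Fin m × Fin k))
    (h : Disjoint T U) : t ^ U.card * S.N (FT T) ≤ S.N (FT (T ∪ U)) := by
  classical
  induction U using Finset.induction_on with
  | empty => simp
  | insert b U hb ih =>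
    have h1 : Disjoint T U := h.mono_right (Finset.subset_insert _ _)
    have h2 : b ∉ T ∪ U := by
      rw [Finset.mem_union, not_or]
      exact ⟨fun h3 => (Finset.disjoint_left.1 h h3) (Finset.mem_insert_self _ _), hb⟩
    have h3 := H _ _ h2
    rw [Finset.union_insert, Finset.card_insert_of_notMem hb, pow_succ]
    have h4 := ih h1
    calc t ^ U.card * t * S.N (FT T) = t * (t ^ U.card * S.N (FT T)) := by ring
      _ ≤ t * S.N (FT (T ∪ U)) := by gcongr
      _ ≤ _ := h3

/-- Some block costs almost nothing. -/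
theorem exists_flat {r C t : ℝ} (hr : 0 < r) (h2 : CotypeWith r C (E →L[ℝ] ℝ)) (h3 : 3 ≤ m)
    (hk : 0 < k) (hm : 2 * (C * B) ≤ (m : ℝ) ^ (1 / r)) (ht : 0 ≤ t)
    (htk : (2 : ℝ) ^ m < t ^ (2 * k)) :
    ∃ (T : Finset (Fin m × Fin k)) (b : Fin m × Fin k), b ∉ T ∧
      S.N (FT (insert b T)) < t * S.N (FT T) := by
  classical
  by_contra hcon
  push Not at hcon
  let a : Fin m := ⟨0, by omega⟩
  let b : Fin m := ⟨1, by omega⟩
  let c : Fin m := ⟨2, by omega⟩
  have hab : a ≠ b := by simp [a, b]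
  have hac : a ≠ c := by simp [a, c]
  have hbc : b ≠ c := by simp [b, c]
  have e1 := S.dual_step ⟨0, hk⟩ hr h2 hab hac hbc hm
  have hdisj : Disjoint (({a} : Finset (Fin m)) ×ˢ (univ : Finset (Fin k)))
      (({b, c} : Finset (Fin m)) ×ˢ (univ : Finset (Fin k))) := by
    rw [Finset.disjoint_left]
    rintro ⟨x, y⟩ hx hy
    rw [Finset.mem_product] at hx hy
    have hx1 := Finset.mem_singleton.1 hx.1
    have hy1 := hy.1
    simp only [Finset.mem_insert, Finset.mem_singleton] at hy1
    rcases hy1 with h | h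
    · exact hab (hx1.symm.trans h)
    · exact hac (hx1.symm.trans h)
  have e2 := S.iter ht hcon _ _ hdisj
  have e3 : (({a} : Finset (Fin m)) ×ˢ (univ : Finset (Fin k))) ∪
      (({b, c} : Finset (Fin m)) ×ˢ (univ : Finset (Fin k))) = {a, b, c} ×ˢ univ := by
    rw [← Finset.union_product]
    rfl
  have e4 : (({b, c} : Finset (Fin m)) ×ˢ (univ : Finset (Fin k))).card = 2 * k := by
    rw [Finset.card_product, Finset.card_pair hbc, Finset.card_univ, Fintype.card_fin]
  rw [e3, e4] at e2
  have hw : 0 < S.N (FT (({a} : Finset (Fin m)) ×ˢ (univ : Finset (Fin k)))) :=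
    S.N_pos (FT_ne_zero _)
  have e5 := e2.trans e1
  have e6 := le_of_mul_le_mul_right e5 hw
  linarith

/-- convexity: real coefficients in `[-1, 1]` are no worse than signs. -/
theorem N_sum_le_of_signs {κ : Type*} [Fintype κ] (u : κ → (Ix m k l → ℤˣ) → ℝ) {W : ℝ}
    (h : ∀ ε : κ → ℤˣ, S.N (∑ i, sg (ε i) • u i) ≤ W) (a : κ → ℝ) (ha : ∀ i, |a i| ≤ 1) :
    S.N (∑ i, a i • u i) ≤ W := by
  classical
  have key : ∀ (s : Finset κ) (a : κ → ℝ), (∀ i, |a i| ≤ 1) →
      (∀ i, i ∉ s → a i = 1 ∨ a i = -1) → S.N (∑ i, a i • u i) ≤ W := by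
    intro s
    induction s using Finset.induction_on with
    | empty =>
      intro a _ ha
      let ε : κ → ℤˣ := fun i => if a i = 1 then 1 else -1
      have h1 : ∀ i, sg (ε i) = a i := by
        intro i
        rcases ha i (Finset.notMem_empty i) with h | h
        · simp [ε, h, sg_one]
        · have : ¬ ((-1 : ℝ) = 1) := by norm_num
          simp [ε, h, this, sg_neg_one]
      have h2 := h ε
      simpa only [h1] using h2
    | insert j s hj ih =>
      intro a ha1 ha2
      have hb : ∀ c : ℝ, c = 1 ∨ c = -1 → S.N (∑ i, (Function.update a j c) i • u i) ≤ W := by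
        intro c hc
        apply ih
        · intro i
          by_cases hij : i = j
          · subst hij
            rw [Function.update_self]
            rcases hc with h | h <;> simp [h]
          · rw [Function.update_of_ne hij]; exact ha1 i
        · intro i hi
          by_cases hij : i = j
          · subst hij
            rw [Function.update_self]; exact hc
          · rw [Function.update_of_ne hij]
            exact ha2 i (by simp [hij, hi])
      have e : ∑ i, a i • u i = ((1 + a j) / 2) • (∑ i, (Function.update a j 1) i • u i)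
          + ((1 - a j) / 2) • (∑ i, (Function.update a j (-1)) i • u i) := by
        rw [Finset.smul_sum, Finset.smul_sum, ← Finset.sum_add_distrib]
        refine Finset.sum_congr rfl fun i _ => ?_
        rw [smul_smul, smul_smul, ← add_smul]
        congr 1
        by_cases hij : i = j
        · subst hij
          rw [Function.update_self, Function.update_self]; ring
        · rw [Function.update_of_ne hij, Function.update_of_ne hij]; ring
      have hj1 := abs_le.1 (ha1 j)
      have p1 := hb 1 (Or.inl rfl)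
      have p2 := hb (-1) (Or.inr rfl)
      rw [e]
      refine (S.N_add _ _).trans ?_
      rw [S.N_smul, S.N_smul, abs_of_nonneg (by linarith), abs_of_nonneg (by linarith)]
      nlinarith
  exact key univ a ha fun i hi => absurd (Finset.mem_univ i) hi

/-- A cheap block gives `ℓ_∞`. -/
theorem linfty_of_flat {t : ℝ} {b : Fin m × Fin k} {T : Finset (Fin m × Fin k)} (hb : b ∉ T)
    (ht : S.N (FT (insert b T)) ≤ t * S.N (FT T)) :
    ∃ x : Ad l → E, ∀ a : Ad l → ℝ, ‖a‖ ≤ ‖∑ β, a β • x β‖ ∧ ‖∑ β, a β • x β‖ ≤ t * D * ‖a‖ := by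
  classical
  set w := S.N (FT T) with hw
  have hwpos : 0 < w := S.N_pos (FT_ne_zero T)
  have hD : 0 < D := S.one_le_D
  let u : Ad l → (Ix m k l → ℤˣ) → ℝ := fun β x =>
    (if addr (fun v => x (b, v)) = β then 1 else 0) * FT T x
  -- lower bound
  have hlow : ∀ (a : Ad l → ℝ) (β : Ad l), |a β| * w ≤ S.N (∑ β, a β • u β) := by
    intro a β
    have h1 := S.N_subst _ (isSubst_repl b (isSubst_const (cst β))) (∑ β, a β • u β)
    have h2 : (∑ β, a β • u β) ∘ (repl b fun _ => cst β) = a β • FT T := by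
      ext x
      have h3 : addr (fun v => (repl b (fun _ => cst β) x) (b, v)) = β := by
        simp only [repl, if_true]
        exact addr_cst β
      simp only [u, Function.comp, Finset.sum_apply, Pi.smul_apply, smul_eq_mul, h3,
        FT_repl hb]
      rw [Finset.sum_eq_single β]
      · simp
      · intro γ _ hγ
        simp [Ne.symm hγ]
      · intro h; exact absurd (Finset.mem_univ _) h
    rw [h2, S.N_smul] at h1
    exact h1
  -- upper bound for signs
  have hsign : ∀ ε : Ad l → ℤˣ, S.N (∑ β, sg (ε β) • u β) ≤ t * w := by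
    intro ε
    let θ : Ad l → ZMod 2 := fun β => if ε β = 1 then 0 else 1
    have hθ : ∀ β, eps (θ β) = ε β := by
      intro β
      rcases Int.units_eq_one_or (ε β) with h | h
      · simp [θ, h, eps]
      · simp only [θ, h]
        rfl
    have h2 : ∑ β, sg (ε β) • u β = FT (insert b T) ∘ repl b (mu θ) := by
      ext x
      simp only [Finset.sum_apply, Pi.smul_apply, smul_eq_mul, Function.comp]
      have h3 : FT (insert b T) (repl b (mu θ) x)
          = sg (ε (addr fun v => x (b, v))) * FT T x := by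
        have h4 : FT (insert b T) (repl b (mu θ) x)
            = sg (Fb b (repl b (mu θ) x)) * FT T (repl b (mu θ) x) := by
          simp only [FT]
          rw [Finset.prod_insert hb]
        rw [h4, Fb_repl_self, phi_mu, hθ, FT_repl hb]
      rw [h3]
      rw [Finset.sum_eq_single (addr fun v => x (b, v))]
      · simp [u]
      · intro β _ hβ
        simp [u, Ne.symm hβ]
      · intro h; exact absurd (Finset.mem_univ _) h
    rw [h2]
    exact (S.N_subst _ (isSubst_repl b (isSubst_mu θ)) _).trans ht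
  -- upper bound in general
  have hup : ∀ a : Ad l → ℝ, S.N (∑ β, a β • u β) ≤ ‖a‖ * (t * w) := by
    intro a
    rcases (norm_nonneg a).eq_or_lt with h0 | h0
    · have : a = 0 := norm_eq_zero.1 h0.symm
      subst this
      simp [S.N_zero]
    · have h1 := S.N_sum_le_of_signs u hsign (fun β => ‖a‖⁻¹ * a β) (fun β => by
        rw [abs_mul, abs_of_pos (inv_pos.2 h0), inv_mul_le_iff₀ h0, mul_one]
        exact norm_le_pi_norm a β)
      have h2 : ∑ β, a β • u β = ‖a‖ • ∑ β, (‖a‖⁻¹ * a β) • u β := by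
        rw [Finset.smul_sum]
        refine Finset.sum_congr rfl fun β _ => ?_
        rw [smul_smul, mul_inv_cancel_left₀ h0.ne']
      rw [h2, S.N_smul, abs_of_pos h0]
      gcongr
  refine ⟨fun β => (D / w) • S.J (u β), fun a => ?_⟩
  have e : ∑ β, a β • (D / w) • S.J (u β) = (D / w) • S.J (∑ β, a β • u β) := by
    rw [map_sum, Finset.smul_sum]
    refine Finset.sum_congr rfl fun β _ => ?_
    rw [map_smul, smul_comm]
  rw [e, norm_smul, Real.norm_eq_abs, abs_of_pos (div_pos hD hwpos)]
  constructor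
  · rw [pi_norm_le_iff_of_nonneg (by positivity)]
    intro β
    have h1 := (hlow a β).trans (S.N_le _)
    rw [Real.norm_eq_abs, div_mul_eq_mul_div, le_div_iff₀ hwpos]
    exact h1
  · have h1 := (S.J_le (∑ β, a β • u β)).trans (hup a)
    calc D / w * ‖S.J (∑ β, a β • u β)‖ ≤ D / w * (‖a‖ * (t * w)) := by gcongr
      _ = t * D * ‖a‖ := by field_simp

end Sys

end Vale.Agent.P111.H698
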