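import Vale.Agent.P111.QL.Defs

/-! Definitions for the statements on substitution invariant norms. -/

namespace Vale.Agent.P111.H698

open Vale.Agent.P111

/-- `σ : Ω^I → Ω^J` is a substitution: every output coordinate is a function of one input
coordinate. -/
def IsSub {Ω I J : Type*} (σ : (I → Ω) → (J → Ω)) : Prop :=
  ∀ j, ∃ (i : I) (g : Ω → Ω), ∀ x, σ x j = g (x i)

/-- `X` contains a `D`-complemented copy of the space of all functions on `Ω^n`, with a norm for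
which the substitutions are bounded by `D`. -/
def HasCopy (Ω : Type*) (n : ℕ) (D : ℝ) (X : Type*) [NormedAddCommGroup X] [NormedSpace ℝ X] :
    Prop :=
  ∃ (J : ((Fin n → Ω) → ℝ) →ₗ[ℝ] X) (R : X →ₗ[ℝ] ((Fin n → Ω) → ℝ)),
    (∀ u, R (J u) = u) ∧ (∀ x, ‖J (R x)‖ ≤ D * ‖x‖) ∧
    ∀ σ : (Fin n → Ω) → (Fin n → Ω), IsSub σ → ∀ u, ‖J (u ∘ σ)‖ ≤ D * ‖J u‖

/-- `X` contains `ℓ_∞^M` with distortion at most `C`. -/
def HasLinfty (M : ℕ) (C : ℝ) (X : Type*) [NormedAddCommGroup X] [NormedSpace ℝ X] : Prop :=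
  ∃ x : Fin M → X, ∀ a : Fin M → ℝ, ‖a‖ ≤ ‖∑ i, a i • x i‖ ∧ ‖∑ i, a i • x i‖ ≤ C * ‖a‖

/-- The norm of the Wiener algebra `A` of the cube: the sum of the absolute values of the Walsh
coefficients. -/
noncomputable def wiener {n : ℕ} (u : (Fin n → ℤˣ) → ℝ) : ℝ :=
  ∑ T : Finset (Fin n), |avg fun η => (∏ i ∈ T, sg (η i)) * u η|

/-- The functions on `Ω^ℕ` depending on finitely many coordinates. -/
def Cyl (Ω : Type*) : Submodule ℝ ((ℕ → Ω) → ℝ) where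
  carrier := {F | ∃ n : ℕ, ∀ x y, (∀ i < n, x i = y i) → F x = F y}
  add_mem' := by
    rintro F G ⟨n, hn⟩ ⟨m, hm⟩
    refine ⟨max n m, fun x y h => ?_⟩
    rw [Pi.add_apply, Pi.add_apply, hn x y fun i hi => h i (lt_max_of_lt_left hi),
      hm x y fun i hi => h i (lt_max_of_lt_right hi)]
  zero_mem' := ⟨0, fun _ _ _ => rfl⟩
  smul_mem' := by
    rintro c F ⟨n, hn⟩
    exact ⟨n, fun x y h => by rw [Pi.smul_apply, Pi.smul_apply, hn x y h]⟩

/-- `X` is a completion of the space `Cyl Ω` for a norm for which the substitutions of `Ω^ℕ` are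
bounded by `D`. -/
def IsCylSpace (Ω : Type*) (D : ℝ) (X : Type*) [NormedAddCommGroup X] [NormedSpace ℝ X] : Prop :=
  CompleteSpace X ∧ ∃ J : Cyl Ω →ₗ[ℝ] X, Function.Injective J ∧ DenseRange J ∧
    ∀ σ : (ℕ → Ω) → (ℕ → Ω), IsSub σ → ∀ F G : Cyl Ω, (∀ x, G.1 x = F.1 (σ x)) →
      ‖J G‖ ≤ D * ‖J F‖

end Vale.Agent.P111.H698
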