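import Vale.Agent.P111.R2.H698.Alph

set_option linter.all false

/-! Completions of the cylinder functions on `Ω^ℕ`. -/

namespace Vale.Agent.P111.H698

open Finset QL

section

variable {Ω : Type*} {X : Type*} [NormedAddCommGroup X] [NormedSpace ℝ X] {D : ℝ}

/-- the constant function one. -/
def cone : Cyl Ω := ⟨fun _ => 1, ⟨0, fun _ _ _ => rfl⟩⟩

/-- the sign of the coordinate functions. -/
noncomputable def co (a : Ω) (k : ℕ) : Cyl Ω :=
  ⟨fun x => sg (toSg a (x k)),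
    ⟨k + 1, fun x y h => congrArg (fun ω => sg (toSg a ω)) (h k (Nat.lt_succ_self k))⟩⟩

/-- reading the first `n` coordinates. -/
def rdN (n : ℕ) (x : ℕ → Ω) : Fin n → Ω := fun i => x i

/-- extending by a constant. -/
def xtN (a : Ω) (n : ℕ) (x : Fin n → Ω) : ℕ → Ω := fun k => if h : k < n then x ⟨k, h⟩ else a

theorem isSub_conjN (a : Ω) (n : ℕ) {σ : (Fin n → Ω) → (Fin n → Ω)} (hσ : IsSub σ) :
    IsSub (fun x : ℕ → Ω => xtN a n (σ (rdN n x))) := by
  intro k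
  by_cases h : k < n
  · obtain ⟨i, g, hg⟩ := hσ ⟨k, h⟩
    exact ⟨i, g, fun x => by simp only [xtN, dif_pos h]; exact hg _⟩
  · exact ⟨k, fun _ => a, fun x => by simp only [xtN, dif_neg h]⟩

theorem isSub_id {I : Type*} : IsSub (id : (I → Ω) → (I → Ω)) := fun j => ⟨j, id, fun _ => rfl⟩

theorem rdN_xtN (a : Ω) (n : ℕ) (x : Fin n → Ω) : rdN n (xtN a n x) = x := by
  funext i; simp [rdN, xtN]

/-- cylinder functions from functions on a finite power. -/
def cyl (n : ℕ) : ((Fin n → Ω) → ℝ) →ₗ[ℝ] Cyl Ω where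
  toFun u := ⟨u ∘ rdN n, ⟨n, fun x y h => by
    have : rdN n x = rdN n y := funext fun i => h i i.2
    simp only [Function.comp, this]⟩⟩
  map_add' _ _ := rfl
  map_smul' _ _ := rfl

/-- restriction to a finite power. -/
def res (a : Ω) (n : ℕ) : Cyl Ω →ₗ[ℝ] ((Fin n → Ω) → ℝ) where
  toFun F := F.1 ∘ xtN a n
  map_add' _ _ := rfl
  map_smul' _ _ := rfl

theorem res_cyl (a : Ω) (n : ℕ) (u : (Fin n → Ω) → ℝ) : res a n (cyl n u) = u := by
  ext x
  change u (rdN n (xtN a n x)) = u x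
  rw [rdN_xtN]

variable {J : Cyl Ω →ₗ[ℝ] X}
  (hσ : ∀ σ : (ℕ → Ω) → (ℕ → Ω), IsSub σ → ∀ F G : Cyl Ω, (∀ x, G.1 x = F.1 (σ x)) →
      ‖J G‖ ≤ D * ‖J F‖)

include hσ

theorem eval_le (F : Cyl Ω) (x : ℕ → Ω) : |F.1 x| * ‖J cone‖ ≤ D * ‖J F‖ := by
  have h := hσ (fun _ => x) (fun j => ⟨j, fun _ => x j, fun _ => rfl⟩) F (F.1 x • cone) (fun y => by
    change F.1 x * 1 = F.1 x
    rw [mul_one])
  rwa [map_smul, norm_smul, Real.norm_eq_abs] at h

theorem norm_cut_le (a : Ω) (n : ℕ) (F : Cyl Ω) : ‖J (cyl n (res a n F))‖ ≤ D * ‖J F‖ :=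
  hσ (fun x => xtN a n (rdN n x)) (isSub_conjN a n isSub_id) F _ fun _ => rfl

theorem one_le_D' (hJ : J cone ≠ 0) : 1 ≤ D := by
  have h := hσ id isSub_id cone cone fun _ => rfl
  have h3 : 0 < ‖J cone‖ := norm_pos_iff.2 hJ
  by_contra hD
  push Not at hD
  nlinarith

theorem res_bound [Finite Ω] (a : Ω) (hJ : J cone ≠ 0) (n : ℕ) (F : Cyl Ω) :
    ∀ x, ‖res a n F x‖ ≤ (D / ‖J cone‖) * ‖J F‖ := by
  have h3 : 0 < ‖J cone‖ := norm_pos_iff.2 hJ
  have h1 := one_le_D' hσ hJ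
  intro x
  have h := eval_le hσ F (xtN a n x)
  rw [div_mul_eq_mul_div, le_div_iff₀ h3]
  exact h

omit hσ in
theorem cut_eventually (a : Ω) (F : Cyl Ω) : ∃ n₀ : ℕ, ∀ n, n₀ ≤ n → cyl n (res a n F) = F := by
  obtain ⟨n₀, hn₀⟩ := F.2
  refine ⟨n₀, fun n hn => Subtype.ext (funext fun x => ?_)⟩
  change F.1 (xtN a n (rdN n x)) = F.1 x
  refine hn₀ _ _ fun i hi => ?_
  have : i < n := lt_of_lt_of_le hi hn
  simp [xtN, rdN, this]

variable [CompleteSpace X] [Finite Ω]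

theorem hasCopy_of_cyl (a : Ω) (hJ : J cone ≠ 0) (hd : DenseRange J) (n : ℕ) :
    ∃ (Jn : ((Fin n → Ω) → ℝ) →ₗ[ℝ] X) (R : X →ₗ[ℝ] ((Fin n → Ω) → ℝ)),
    (∀ u, R (Jn u) = u) ∧ (∀ x, ‖Jn (R x)‖ ≤ D * ‖x‖) ∧
    (∀ F, Jn (R (J F)) = J (cyl n (res a n F))) ∧
    ∀ σ : (Fin n → Ω) → (Fin n → Ω), IsSub σ → ∀ u, ‖Jn (u ∘ σ)‖ ≤ D * ‖Jn u‖ := by
  classical
  haveI : Fintype Ω := Fintype.ofFinite Ω
  have h1D := one_le_D' hσ hJ
  have hb : ∀ F, ‖res a n F‖ ≤ (D / ‖J cone‖) * ‖J F‖ := fun F => by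
    rw [pi_norm_le_iff_of_nonneg (by positivity)]
    exact res_bound hσ a hJ n F
  let R : X →L[ℝ] ((Fin n → Ω) → ℝ) := (res a n).extendOfNorm J
  have hR : ∀ F, R (J F) = res a n F := fun F => LinearMap.extendOfNorm_eq hd ⟨_, hb⟩ F
  let Jn : ((Fin n → Ω) → ℝ) →ₗ[ℝ] X := J ∘ₗ cyl n
  have hJn : Continuous Jn := LinearMap.continuous_of_finiteDimensional Jn
  refine ⟨Jn, R.toLinearMap, fun u => ?_, fun x => ?_, fun F => ?_, fun σ hs u => ?_⟩
  · change R (J (cyl n u)) = u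
    rw [hR, res_cyl]
  · change ‖Jn (R x)‖ ≤ D * ‖x‖
    refine hd.induction_on (p := fun x => ‖Jn (R x)‖ ≤ D * ‖x‖) x ?_ ?_
    · exact isClosed_le (hJn.comp R.continuous).norm (continuous_const.mul continuous_norm)
    · intro F
      rw [hR]
      exact norm_cut_le hσ a n F
  · change Jn (R (J F)) = _
    rw [hR]; rfl
  · refine hσ (fun x => xtN a n (σ (rdN n x))) (isSub_conjN a n hs) (cyl n u)
      (cyl n (u ∘ σ)) fun x => ?_
    change u (σ (rdN n x)) = u (rdN n (xtN a n (σ (rdN n x))))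
    rw [rdN_xtN]

theorem bap_of_cyl (a : Ω) (hJ : J cone ≠ 0) (hd : DenseRange J) : HasBAP X := by
  classical
  haveI : Fintype Ω := Fintype.ofFinite Ω
  have hD := one_le_D' hσ hJ
  choose Jn R h1 h2 h3 h4 using hasCopy_of_cyl hσ a hJ hd
  refine ⟨D, fun M hM δ hδ => ?_⟩
  set δ' := δ / (2 * (D + 2)) with hδ'
  have hδ'0 : 0 < δ' := by positivity
  obtain ⟨t, -, htf, ht⟩ := Metric.finite_approx_of_totallyBounded hM.totallyBounded δ' hδ'0
  have hF : ∀ y : X, ∃ F : Cyl Ω, dist y (J F) < δ' := fun y => hd.exists_dist_lt y hδ'0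
  choose F hF using hF
  have hev : ∀ᶠ n in Filter.atTop, ∀ y ∈ t, cyl n (res a n (F y)) = F y := by
    rw [Filter.eventually_all_finite htf]
    intro y _
    obtain ⟨n₀, hn₀⟩ := cut_eventually a (F y)
    exact Filter.eventually_atTop.2 ⟨n₀, hn₀⟩
  obtain ⟨n, hn⟩ := hev.exists
  have hJn : Continuous (Jn n) := LinearMap.continuous_of_finiteDimensional (Jn n)
  let S : X →L[ℝ] X := LinearMap.mkContinuous ((Jn n) ∘ₗ (R n)) D (h2 n)
  have hS : ∀ x, S x = Jn n (R n x) := fun _ => rfl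
  refine ⟨S, ?_, ?_, ?_⟩
  · have hle : LinearMap.range (S : X →ₗ[ℝ] X) ≤ LinearMap.range (Jn n) := by
      rintro _ ⟨x, rfl⟩
      exact ⟨R n x, rfl⟩
    exact Submodule.finiteDimensional_of_le hle
  · exact S.opNorm_le_bound (by linarith) fun x => h2 n x
  · intro x hx
    obtain ⟨y, hy, hxy⟩ := Set.mem_iUnion₂.1 (ht hx)
    rw [Metric.mem_ball] at hxy
    have e1 : S (J (F y)) = J (F y) := by
      rw [hS, h3, hn y hy]
    have e2 : ‖x - J (F y)‖ < 2 * δ' := by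
      have := dist_triangle x y (J (F y))
      rw [← dist_eq_norm]
      have := hF y
      linarith
    have e3 : S x - x = S (x - J (F y)) - (x - J (F y)) := by
      rw [map_sub, e1]; abel
    rw [e3]
    have e4 := h2 n (x - J (F y))
    rw [← hS] at e4
    calc ‖S (x - J (F y)) - (x - J (F y))‖ ≤ ‖S (x - J (F y))‖ + ‖x - J (F y)‖ := norm_sub_le _ _
      _ ≤ D * ‖x - J (F y)‖ + ‖x - J (F y)‖ := by linarith
      _ = (D + 1) * ‖x - J (F y)‖ := by ring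
      _ ≤ (D + 1) * (2 * δ') := by gcongr
      _ < δ := by
        rw [hδ']
        have h5 : (D + 1) * (2 * (δ / (2 * (D + 2)))) = δ * ((D + 1) / (D + 2)) := by
          field_simp
        rw [h5]
        have h6 : (D + 1) / (D + 2) < 1 := by
          rw [div_lt_one (by linarith)]; linarith
        nlinarith

omit [CompleteSpace X] [Finite Ω] in
theorem not_kconvex_of_cyl {a b : Ω} (hab : a ≠ b) (hJ : J cone ≠ 0) : ¬ IsKConvex X := by
  rintro ⟨K, hK⟩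
  have hD := one_le_D' hσ hJ
  have hc : 0 < ‖J cone‖ := norm_pos_iff.2 hJ
  have key : ∀ s : ℕ, 0 < s → √((s : ℝ) / 3) * ‖J cone‖ / D ≤ |K| * (D * ‖J (co a 0)‖) := by
    intro s hs
    let e : (Fin s → ℤˣ) → ℕ := fun η => (Fintype.equivFin (Fin s → ℤˣ) η : ℕ)
    have he : Function.Injective e := fun a b hab =>
      (Fintype.equivFin (Fin s → ℤˣ)).injective (Fin.ext hab)
    let f : (Fin s → ℤˣ) → X := fun ε => J (co a (e ε))
    have hf : ∀ ε, ‖f ε‖ ≤ D * ‖J (co a 0)‖ := by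
      intro ε
      exact hσ (fun x _ => x (e ε)) (fun _ => ⟨e ε, id, fun x => rfl⟩) (co a 0) (co a (e ε))
        fun x => rfl
    let G : (Fin s → ℤˣ) → Cyl Ω := fun ε => ∑ i, sg (ε i) • avg fun η : Fin s → ℤˣ =>
      sg (η i) • co a (e η)
    have hG : ∀ ε, rad f ε = J (G ε) := by
      intro ε
      simp only [rad, avg, f, G, map_sum, map_smul]
    have hval : ∀ ε x, (G ε).1 x =
        avg fun η : Fin s → ℤˣ => (∑ i, sg (ε i) * sg (η i)) * sg (toSg a (x (e η))) := by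
      intro ε x
      have h1 : (G ε).1 x = ∑ i, sg (ε i) * avg fun η : Fin s → ℤˣ =>
          sg (η i) * sg (toSg a (x (e η))) := by
        simp only [G, avg, AddSubmonoidClass.coe_finset_sum, Submodule.coe_smul, Finset.sum_apply,
          Pi.smul_apply, smul_eq_mul, co]
      rw [h1]
      simp only [← avg_mul_left]
      rw [← avg_sum]
      refine avg_congr fun η => ?_
      rw [Finset.sum_mul]
      exact Finset.sum_congr rfl fun i _ => by ring
    have hlow : ∀ ε, √((s : ℝ) / 3) * ‖J cone‖ / D ≤ ‖rad f ε‖ := by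
      intro ε
      let x : ℕ → Ω := Function.extend e
        (fun η : Fin s → ℤˣ => ofSg a b (if 0 ≤ ∑ i, sg (ε i) * sg (η i) then 1 else -1))
        (fun _ => a)
      have hx : ∀ η, (∑ i, sg (ε i) * sg (η i)) * sg (toSg a (x (e η)))
          = |∑ i, sg (ε i) * sg (η i)| := by
        intro η
        simp only [x, he.extend_apply, toSg_ofSg hab]
        split_ifs with h
        · rw [sg_one, mul_one, abs_of_nonneg h]
        · rw [sg_neg_one, abs_of_neg (not_le.1 h)]; ring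
      have h1 : (G ε).1 x = avg fun η : Fin s → ℤˣ => |∑ i, sg (η i)| := by
        rw [hval]
        simp only [hx]
        have h2 := avg_comp_equiv (Equiv.mulLeft ε) (fun η : Fin s → ℤˣ => |∑ i, sg (η i)|)
        rw [← h2]
        refine avg_congr fun η => ?_
        simp [sg_mul]
      have h2 := sqrt_le_avg_abs_sum (ι := Fin s) (by rwa [Fintype.card_fin])
      rw [Fintype.card_fin, ← h1] at h2
      have h3 := eval_le hσ (G ε) x
      rw [hG, div_le_iff₀ (by linarith)]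
      have h4 : 0 ≤ √((s : ℝ) / 3) := Real.sqrt_nonneg _
      have h5 : √((s : ℝ) / 3) * ‖J cone‖ ≤ |(G ε).1 x| * ‖J cone‖ := by
        gcongr
        exact h2.trans (le_abs_self _)
      linarith
    have h1 := hK s f
    have h2 : (avg fun ε => ‖f ε‖ ^ 2) ^ (1 / 2 : ℝ) ≤ D * ‖J (co a 0)‖ := by
      have h5 : (avg fun ε => ‖f ε‖ ^ 2) ≤ (D * ‖J (co a 0)‖) ^ 2 := by
        refine avg_le_const fun ε => ?_
        have := hf ε
        gcongr
      have h0 : 0 ≤ (avg fun ε => ‖f ε‖ ^ 2) := avg_nonneg fun ε => by positivity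
      calc _ ≤ ((D * ‖J (co a 0)‖) ^ 2) ^ (1 / 2 : ℝ) := Real.rpow_le_rpow h0 h5 (by norm_num)
        _ = D * ‖J (co a 0)‖ := by
            rw [← Real.sqrt_eq_rpow, Real.sqrt_sq (by positivity)]
    have h3 : √((s : ℝ) / 3) * ‖J cone‖ / D ≤ (avg fun ε => ‖rad f ε‖ ^ 2) ^ (1 / 2 : ℝ) := by
      have h6 : (√((s : ℝ) / 3) * ‖J cone‖ / D) ^ 2 ≤ avg fun ε => ‖rad f ε‖ ^ 2 := by
        refine const_le_avg fun ε => ?_
        have := hlow ε
        gcongr
      calc √((s : ℝ) / 3) * ‖J cone‖ / D = ((√((s : ℝ) / 3) * ‖J cone‖ / D) ^ 2) ^ (1 / 2 : ℝ) := by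
            rw [← Real.sqrt_eq_rpow, Real.sqrt_sq (by positivity)]
        _ ≤ _ := Real.rpow_le_rpow (by positivity) h6 (by norm_num)
    have h0 : 0 ≤ (avg fun ε => ‖f ε‖ ^ 2) ^ (1 / 2 : ℝ) :=
      Real.rpow_nonneg (avg_nonneg fun ε => by positivity) _
    calc _ ≤ _ := h3
      _ ≤ K * (avg fun ε => ‖f ε‖ ^ 2) ^ (1 / 2 : ℝ) := h1
      _ ≤ |K| * (avg fun ε => ‖f ε‖ ^ 2) ^ (1 / 2 : ℝ) := by
          gcongr; exact le_abs_self K
      _ ≤ _ := by gcongr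
  -- unboundedness
  set A : ℝ := |K| * (D * ‖J (co a 0)‖) * D / ‖J cone‖ with hA
  have hA0 : 0 ≤ A := by positivity
  obtain ⟨s, hs⟩ := exists_nat_gt (3 * A ^ 2)
  have hs0 : 0 < s := by
    have : (0 : ℝ) < s := lt_of_le_of_lt (by positivity) hs
    exact_mod_cast this
  have h1 := key s hs0
  have h2 : √((s : ℝ) / 3) ≤ A := by
    rw [hA, le_div_iff₀ hc]
    rw [div_le_iff₀ (by linarith)] at h1
    linarith
  have h3 : (s : ℝ) / 3 ≤ A ^ 2 := by
    have h4 := Real.sq_sqrt (show (0 : ℝ) ≤ (s : ℝ) / 3 by positivity)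
    rw [← h4]
    gcongr
  linarith

end

theorem isCylSpace_bap {Ω : Type*} [Finite Ω] [Nontrivial Ω] {D : ℝ} {X : Type*}
    [NormedAddCommGroup X] [NormedSpace ℝ X]
    (h : IsCylSpace Ω D X) : HasBAP X ∧ ¬ IsKConvex X ∧ ∀ n, HasCopy Ω n D X := by
  obtain ⟨hc, J, hinj, hd, hσ⟩ := h
  obtain ⟨a, b, hab⟩ := exists_pair_ne Ω
  have hJ : J cone ≠ 0 := by
    intro h
    have h1 := hinj (h.trans (map_zero J).symm)
    have h2 := congrFun (congrArg Subtype.val h1) (fun _ => a)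
    simp [cone] at h2
  refine ⟨bap_of_cyl hσ a hJ hd, not_kconvex_of_cyl hσ hab hJ, fun n => ?_⟩
  obtain ⟨Jn, R, h1, h2, -, h4⟩ := hasCopy_of_cyl hσ a hJ hd n
  exact ⟨Jn, R, h1, h2, h4⟩

end Vale.Agent.P111.H698
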