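import Vale.Agent.P111.R2.H698.Copy

set_option linter.all false

/-! The class of all substitution invariant norms, and interpolation spaces between the Wiener
algebra and the continuous functions. -/

namespace Vale.Agent.P111.H698

open Finset QL

section Wiener

variable {n : ℕ}

theorem chi_single (T : Finset (Fin n)) (i : Fin n) :
    chi T (Pi.mulSingle i (-1) : Fin n → ℤˣ) = if i ∈ T then -1 else 1 := by
  unfold chi
  split_ifs with h
  · rw [Finset.prod_eq_single i]
    · rw [Pi.mulSingle_eq_same, sg_neg_one]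
    · intro j _ hj
      rw [Pi.mulSingle_eq_of_ne hj, sg_one]
    · intro h'; exact absurd h h'
  · apply Finset.prod_eq_one
    intro j hj
    have : j ≠ i := by rintro rfl; exact h hj
    rw [Pi.mulSingle_eq_of_ne this, sg_one]

theorem coef_chi_ne {S T : Finset (Fin n)} (h : T ≠ S) : coef T (chi S) = 0 := by
  obtain ⟨i, hi⟩ : ∃ i, ¬ (i ∈ T ↔ i ∈ S) := by
    by_contra hcon
    push Not at hcon
    exact h (Finset.ext hcon)
  have h1 := avg_comp_equiv (Equiv.mulRight (Pi.mulSingle i (-1 : ℤˣ) : Fin n → ℤˣ))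
    (fun x => chi T x * chi S x)
  simp only [Equiv.coe_mulRight, chi_mul, chi_single] at h1
  have h2 : ∀ x : Fin n → ℤˣ, chi T x * (if i ∈ T then -1 else 1) *
      (chi S x * (if i ∈ S then -1 else 1)) = -(chi T x * chi S x) := by
    intro x
    by_cases h3 : i ∈ T <;> by_cases h4 : i ∈ S
    · exact absurd (iff_of_true h3 h4) hi
    · simp [h3, h4]
    · simp [h3, h4]
    · exact absurd (iff_of_false h3 h4) hi
  simp only [h2] at h1
  rw [avg_neg] at h1
  unfold coef
  linarith

theorem wiener_eq (u : (Fin n → ℤˣ) → ℝ) : wiener u = ∑ T : Finset (Fin n), |coef T u| := rfl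

theorem wiener_chi (S : Finset (Fin n)) : wiener (chi S) = 1 := by
  rw [wiener_eq, Finset.sum_eq_single S]
  · rw [coef_chi_self, abs_one]
  · intro T _ hT
    rw [coef_chi_ne hT, abs_zero]
  · intro h; exact absurd (Finset.mem_univ _) h

theorem wiener_smul (c : ℝ) (u : (Fin n → ℤˣ) → ℝ) : wiener (c • u) = |c| * wiener u := by
  simp only [wiener_eq, coef_smul, abs_mul, Finset.mul_sum]

theorem wiener_add (u v : (Fin n → ℤˣ) → ℝ) : wiener (u + v) ≤ wiener u + wiener v := by
  simp only [wiener_eq, coef_add, ← Finset.sum_add_distrib]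
  exact Finset.sum_le_sum fun T _ => abs_add_le _ _

theorem wiener_sum {κ : Type*} (s : Finset κ) (u : κ → (Fin n → ℤˣ) → ℝ) :
    wiener (∑ k ∈ s, u k) ≤ ∑ k ∈ s, wiener (u k) := by
  classical
  induction s using Finset.induction_on with
  | empty =>
    have : wiener (0 : (Fin n → ℤˣ) → ℝ) = 0 := by
      have := wiener_smul 0 (0 : (Fin n → ℤˣ) → ℝ)
      simpa using this
    simp [this]
  | insert a s ha ih =>
    rw [Finset.sum_insert ha, Finset.sum_insert ha]
    exact (wiener_add _ _).trans (by linarith)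

theorem chi_subst {σ : (Fin n → ℤˣ) → (Fin n → ℤˣ)} (hσ : IsSubst σ) (T : Finset (Fin n)) :
    ∃ (s : ℝ) (S : Finset (Fin n)), |s| = 1 ∧ ∀ x, chi T (σ x) = s * chi S x := by
  classical
  induction T using Finset.induction_on with
  | empty => exact ⟨1, ∅, abs_one, fun x => by simp [chi]⟩
  | insert j T hj ih =>
    obtain ⟨s, S, hs, hS⟩ := ih
    have e : ∀ x, chi (insert j T) (σ x) = sg (σ x j) * chi T (σ x) := by
      intro x; simp only [chi]; rw [Finset.prod_insert hj]
    rcases hσ j with ⟨i, t, ht⟩ | ⟨t, ht⟩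
    · by_cases hi : i ∈ S
      · refine ⟨sg t * s, S.erase i, by rw [abs_mul, abs_sg, hs, one_mul], fun x => ?_⟩
        rw [e, hS, ht, sg_mul]
        have h1 : chi S x = sg (x i) * chi (S.erase i) x := by
          simp only [chi]
          exact (Finset.mul_prod_erase S (fun i => sg (x i)) hi).symm
        rw [h1]
        have := sg_mul_self (x i)
        linear_combination (sg t * s * chi (S.erase i) x) * this
      · refine ⟨sg t * s, insert i S, by rw [abs_mul, abs_sg, hs, one_mul], fun x => ?_⟩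
        rw [e, hS, ht, sg_mul]
        have h1 : chi (insert i S) x = sg (x i) * chi S x := by
          simp only [chi]
          rw [Finset.prod_insert hi]
        rw [h1]; ring
    · refine ⟨sg t * s, S, by rw [abs_mul, abs_sg, hs, one_mul], fun x => ?_⟩
      rw [e, hS, ht]; ring

theorem wiener_subst {σ : (Fin n → ℤˣ) → (Fin n → ℤˣ)} (hσ : IsSubst σ)
    (u : (Fin n → ℤˣ) → ℝ) : wiener (u ∘ σ) ≤ wiener u := by
  have h : u ∘ σ = ∑ T : Finset (Fin n), coef T u • (chi T ∘ σ) := by
    ext x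
    simp only [Function.comp, Finset.sum_apply, Pi.smul_apply, smul_eq_mul]
    rw [inversion u (σ x)]
    exact Finset.sum_congr rfl fun T _ => mul_comm _ _
  rw [h]
  refine (wiener_sum _ _).trans ?_
  rw [wiener_eq]
  refine Finset.sum_le_sum fun T _ => ?_
  rw [wiener_smul]
  obtain ⟨s, S, hs, hS⟩ := chi_subst hσ T
  have h2 : chi T ∘ σ = s • chi S := by
    ext x; simp [hS]
  rw [h2, wiener_smul, hs, wiener_chi, one_mul, mul_one]

end Wiener

/-- interpolation spaces between `A` and `C`. -/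
theorem subst_of_interp {n : ℕ} {D : ℝ} {E : Type*} [NormedAddCommGroup E] [NormedSpace ℝ E]
    (J : ((Fin n → ℤˣ) → ℝ) →ₗ[ℝ] E)
    (hT : ∀ T : ((Fin n → ℤˣ) → ℝ) →ₗ[ℝ] ((Fin n → ℤˣ) → ℝ),
      (∀ u, wiener (T u) ≤ wiener u) → (∀ u, ‖T u‖ ≤ ‖u‖) → ∀ u, ‖J (T u)‖ ≤ D * ‖J u‖)
    (σ : (Fin n → ℤˣ) → (Fin n → ℤˣ)) (hσ : IsSubst σ) (u : (Fin n → ℤˣ) → ℝ) :
    ‖J (u ∘ σ)‖ ≤ D * ‖J u‖ := by
  let T : ((Fin n → ℤˣ) → ℝ) →ₗ[ℝ] ((Fin n → ℤˣ) → ℝ) :=
    { toFun := fun u => u ∘ σ
      map_add' := fun _ _ => rfl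
      map_smul' := fun _ _ => rfl }
  refine hT T (fun u => wiener_subst hσ u) (fun u => ?_) u
  rw [pi_norm_le_iff_of_nonneg (norm_nonneg _)]
  exact fun x => norm_le_pi_norm u (σ x)

end Vale.Agent.P111.H698
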